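import Crest.Agent.R134.Basic

/-!
Row 134: the group algebra inside the group von Neumann algebra.
-/

set_option autoImplicit false
set_option linter.unusedVariables false
set_option linter.unusedSectionVars false
set_option linter.deprecated false

open Crest.OpAlg Filter Topology
open scoped InnerProductSpace

namespace Crest.Agent.R134

variable {G : Type*} [Group G] [DecidableEq G]

/-- The group algebra. -/
abbrev GA (G : Type*) := MonoidAlgebra ℂ G

/-- A group element in the group algebra. -/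
noncomputable abbrev sg (g : G) : GA G := MonoidAlgebra.single g 1

lemma sg_mul (g h : G) : sg g * sg h = sg (g * h) := by simp [MonoidAlgebra.single_mul_single]

lemma sg_one : sg (1 : G) = 1 := rfl

lemma single_eq_sg (g : G) (c : ℂ) : MonoidAlgebra.single g c = c • sg g := by simp

lemma eq_sum_sg (x : GA G) : x = ∑ g ∈ x.coeff.support, x.coeff g • sg g := by
  conv_lhs => rw [← MonoidAlgebra.sum_coeff_single x]
  simp [Finsupp.sum]

/-- The regular representation of the group algebra. -/
noncomputable def io : GA G →ₐ[ℂ] BH G := MonoidAlgebra.lift ℂ (BH G) G lam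

lemma io_single (g : G) (c : ℂ) : io (MonoidAlgebra.single g c) = c • lam g := by simp [io]

lemma io_sg (g : G) : io (sg g) = lam g := by simp [io]

lemma io_mem (x : GA G) : io x ∈ MM G := by
  induction x using MonoidAlgebra.induction_linear with
  | zero => simp
  | add x y hx hy => rw [map_add]; exact add_mem hx hy
  | single g c => rw [io_single]; exact SMulMemClass.smul_mem _ (lam_mem g)

/-- The vector of an element of the group algebra. -/
noncomputable def vec : GA G →ₗ[ℂ] ltwo G where
  toFun x := io x (dl 1)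
  map_add' x y := by simp
  map_smul' c x := by simp

lemma vec_def (x : GA G) : vec x = io x (dl 1) := rfl

lemma vec_sg (g : G) : vec (sg g) = dl g := by simp [vec_def, io_sg, lam_dl]

lemma vec_mul (x y : GA G) : vec (x * y) = io x (vec y) := by simp [vec_def]

lemma vec_apply (x : GA G) (g : G) : vec x g = x.coeff g := by
  induction x using MonoidAlgebra.induction_linear with
  | zero => simp
  | add x y hx hy => simp [hx, hy]
  | single h c =>
    rw [single_eq_sg, map_smul, vec_sg]
    simp [dl_apply, Finsupp.single_apply, eq_comm]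

lemma norm_vec_sg_mul (g : G) (x : GA G) : ‖vec (sg g * x)‖ = ‖vec x‖ := by
  rw [vec_mul, io_sg, norm_unitary (lam_unitary g)]

lemma norm_vec_mul_sg (g : G) (x : GA G) : ‖vec (x * sg g)‖ = ‖vec x‖ := by
  rw [vec_mul, vec_sg, tr_dl (io_mem x), vec_def]

lemma pyth {E I : Type*} [NormedAddCommGroup E] [InnerProductSpace ℂ E] (s : Finset I)
    (y : I → E) (h : ∀ i ∈ s, ∀ j ∈ s, i ≠ j → ⟪y i, y j⟫_ℂ = 0) :
    ‖∑ i ∈ s, y i‖ ^ 2 = ∑ i ∈ s, ‖y i‖ ^ 2 := by
  have : ((‖∑ i ∈ s, y i‖ ^ 2 : ℝ) : ℂ) = ((∑ i ∈ s, ‖y i‖ ^ 2 : ℝ) : ℂ) := by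
    push_cast
    rw [← Complex.coe_algebraMap, ← inner_self_eq_norm_sq_to_K, sum_inner]
    refine Finset.sum_congr rfl fun i hi => ?_
    rw [inner_sum, Finset.sum_eq_single_of_mem i hi fun j hj hji => h i hi j hj hji.symm,
      inner_self_eq_norm_sq_to_K]
  exact_mod_cast this

lemma pyth_vec {I : Type*} (s : Finset I) (x : I → GA G)
    (h : ∀ i ∈ s, ∀ j ∈ s, ∀ g, (x i).coeff g ≠ 0 → (x j).coeff g ≠ 0 → i = j) :
    ‖vec (∑ i ∈ s, x i)‖ ^ 2 = ∑ i ∈ s, ‖vec (x i)‖ ^ 2 := by
  rw [map_sum]
  refine pyth s _ fun i hi j hj hij => ?_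
  rw [lp.inner_eq_tsum]
  refine (tsum_congr fun g => ?_).trans tsum_zero
  rw [vec_apply, vec_apply]
  by_cases h1 : (x i).coeff g = 0
  · simp [h1]
  · by_cases h2 : (x j).coeff g = 0
    · simp [h2]
    · exact absurd (h i hi j hj g h1 h2) hij

lemma norm_sum_dl {I : Type*} (s : Finset I) (f : I → G) (hf : Set.InjOn f s) (c : I → ℂ) :
    ‖∑ i ∈ s, c i • dl (f i)‖ ^ 2 = ∑ i ∈ s, ‖c i‖ ^ 2 := by
  rw [pyth]
  · simp [norm_smul, norm_dl]
  · intro i hi j hj hij
    rw [inner_smul_left, inner_smul_right, dl_orth.2 fun h => hij (hf hi hj h)]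
    simp

lemma coeff_sg_mul (g h : G) (x : GA G) : (sg g * x).coeff h = x.coeff (g⁻¹ * h) := by
  simp [MonoidAlgebra.coeff_single_mul_apply]

lemma coeff_mul_sg (g h : G) (x : GA G) : (x * sg g).coeff h = x.coeff (h * g⁻¹) := by
  simp [MonoidAlgebra.coeff_mul_single_apply]

end Crest.Agent.R134
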