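import Crest.Agent.R134.Basic

/-!
Row 134: from the approximation lemma to the isomorphism, by a Baire category argument.
-/

set_option autoImplicit false
set_option linter.unusedVariables false
set_option linter.unusedSectionVars false
set_option linter.deprecated false

open Crest.OpAlg Filter Topology
open scoped InnerProductSpace

namespace Crest.Agent.R134

section General
variable {F G : Type*} [Group F] [DecidableEq F] [Group G] [DecidableEq G]

lemma iso_of_unitary (J : ltwo F ≃ₗᵢ[ℂ] ltwo G) (h1 : J (dl 1) = dl 1)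
    (hc : ∀ T : BH G, (∀ w, Commute T (J.conjStarAlgEquiv (lam w))) ↔ ∀ g, Commute T (lam g)) :
    ∃ Φ : MM F ≃⋆ₐ[ℂ] MM G, ∀ x : MM F, groupTrace G (Φ x : BH G) = groupTrace F (x : BH F) := by
  set e := J.conjStarAlgEquiv with he
  have hm : ∀ x : BH F, x ∈ MM F ↔ e x ∈ MM G := fun x => by
    rw [mem_MM, mem_MM]
    constructor
    · intro h T hT
      have h2 := h (e.symm T) fun w => by
        have := ((hc T).2 hT w).map e.symm
        simpa using this
      simpa using h2.map e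
    · intro h T hT
      have h2 := h (e T) ((hc _).1 fun w => (hT w).map e)
      simpa using h2.map e.symm
  refine ⟨{ toFun := fun x => ⟨e x, (hm x).1 x.2⟩
            invFun := fun y => ⟨e.symm y, (hm _).2 (by simp)⟩
            left_inv := fun x => by ext1; simp
            right_inv := fun x => by ext1; simp
            map_mul' := fun x y => by ext1; simp
            map_add' := fun x y => by ext1; simp
            map_star' := fun x => by ext1; simp [map_star]
            map_smul' := fun c x => by ext1; simp }, fun x => ?_⟩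
  change ⟪dl 1, J ((x : BH F) (J.symm (dl 1)))⟫_ℂ = ⟪dl 1, (x : BH F) (dl 1)⟫_ℂ
  rw [← h1, J.symm_apply_apply, J.inner_map_map]

lemma iso_of_family (η : F → ltwo G) (ho : Orthonormal ℂ η) (h1 : η 1 = dl 1)
    (hT : ∀ T : BH G, (∀ g, Commute T (lam g)) → ∀ u v w,
      ⟪η u, T (η (w * v))⟫_ℂ = ⟪η (w⁻¹ * u), T (η v)⟫_ℂ)
    (hd : ∀ g, dl g ∈ closure (Submodule.span ℂ (Set.range η) : Set (ltwo G))) :
    ∃ Φ : MM F ≃⋆ₐ[ℂ] MM G, ∀ x : MM F, groupTrace G (Φ x : BH G) = groupTrace F (x : BH F) := by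
  obtain ⟨J0, hJ0⟩ := exists_isometry η ho
  have hs : Function.Surjective J0 := by
    have hcl : IsClosed (Set.range J0) := J0.isometry.isClosedEmbedding.isClosed_range
    have h2 : ∀ g, dl g ∈ LinearMap.range J0.toLinearMap := fun g => by
      refine closure_minimal ?_ hcl (hd g)
      refine (Submodule.span_le (p := LinearMap.range J0.toLinearMap)).2 ?_
      rintro _ ⟨w, rfl⟩
      exact ⟨_, hJ0 w⟩
    intro ζ
    refine closure_minimal ?_ hcl (dense_dl ζ)
    refine (Submodule.span_le (p := LinearMap.range J0.toLinearMap)).2 ?_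
    rintro _ ⟨g, rfl⟩
    exact h2 g
  let J := LinearIsometryEquiv.ofSurjective J0 hs
  have hJ : ∀ w, J (dl w) = η w := hJ0
  set e := J.conjStarAlgEquiv with he
  have hext : ∀ S T : BH G, (∀ u v, ⟪η u, S (η v)⟫_ℂ = ⟪η u, T (η v)⟫_ℂ) → S = T := by
    intro S T h
    refine e.symm.injective (ext_entries fun v u => ?_)
    change ⟪dl u, J.symm (S (J (dl v)))⟫_ℂ = ⟪dl u, J.symm (T (J (dl v)))⟫_ℂ
    rw [← J.inner_map_map, ← J.inner_map_map (dl u), J.apply_symm_apply, J.apply_symm_apply, hJ,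
      hJ, h]
  have hπ : ∀ w v, e (lam w) (η v) = η (w * v) := fun w v => by
    rw [← hJ, he, LinearIsometryEquiv.conjStarAlgEquiv_apply_apply, J.symm_apply_apply, lam_dl, hJ]
  have hadj : ∀ (y : BH G) (a b : ltwo G), ⟪a, y b⟫_ℂ = ⟪(star y) a, b⟫_ℂ := fun y a b => by
    rw [ContinuousLinearMap.star_eq_adjoint, ContinuousLinearMap.adjoint_inner_left]
  have hM : ∀ w, e (lam w) ∈ MM G := fun w => mem_MM.2 fun T h => hext _ _ fun u v => by
    rw [mul_apply_eq_comp, mul_apply_eq_comp, hπ, hT T h, hadj (e (lam w)), ← map_star, star_lam,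
      hπ]
  have hU : ∀ w, e (lam w) ∈ unitary (BH G) := fun w => by
    rw [Unitary.mem_iff, ← map_star, ← map_mul, ← map_mul, (lam_unitary w).1, (lam_unitary w).2]
    simp
  have hη : ∀ y ∈ MM G, ∀ v, ‖y (η v)‖ = ‖y (dl 1)‖ := fun y hy v => by
    rw [← tr_mul hy (hM v) (hU v), ← h1, hπ, mul_one]
  refine iso_of_unitary J (by rw [hJ, h1]) fun T => ⟨fun h g => hext _ _ fun u v => ?_,
    fun h w => mem_MM.1 (hM w) T h⟩
  let φ : BH G → ℂ := fun y => ⟪η u, (T * y - y * T) (η v)⟫_ℂ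
  have hφ : ∀ y ∈ MM G, ‖φ y‖ ≤ 2 * ‖T‖ * ‖y (dl 1)‖ := fun y hy => by
    have a1 : ‖⟪η u, T (y (η v))⟫_ℂ‖ ≤ ‖T‖ * ‖y (dl 1)‖ := by
      refine (norm_inner_le_norm _ _).trans ?_
      rw [ho.1, one_mul, ← hη y hy v]
      exact T.le_opNorm _
    have a2 : ‖⟪η u, y (T (η v))⟫_ℂ‖ ≤ ‖T‖ * ‖y (dl 1)‖ := by
      rw [hadj]
      refine (norm_inner_le_norm _ _).trans ?_
      rw [hη _ (star_mem hy), tr_star hy, mul_comm]
      gcongr
      simpa [ho.1 v] using T.le_opNorm (η v)
    simp only [φ, sub_apply, mul_apply_eq_comp, inner_sub_right]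
    refine (norm_sub_le _ _).trans ?_
    linarith
  have h2 : ∀ ζ ∈ Submodule.span ℂ (Set.range η), ∃ y ∈ MM G, y (dl 1) = ζ ∧ Commute T y := by
    intro ζ hζ
    induction hζ using Submodule.span_induction with
    | mem x hx =>
      obtain ⟨w, rfl⟩ := hx
      exact ⟨_, hM w, by rw [← h1, hπ, mul_one], h w⟩
    | zero => exact ⟨0, zero_mem _, rfl, Commute.zero_right _⟩
    | add x y _ _ hx hy =>
      obtain ⟨x, m1, rfl, c1⟩ := hx
      obtain ⟨y, m2, rfl, c2⟩ := hy
      exact ⟨x + y, add_mem m1 m2, rfl, c1.add_right c2⟩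
    | smul c x _ hx =>
      obtain ⟨x, m1, rfl, c1⟩ := hx
      exact ⟨c • x, SMulMemClass.smul_mem _ m1, rfl, c1.smul_right c⟩
  have h3 : closure (Submodule.span ℂ (Set.range η) : Set (ltwo G)) ⊆
      {ζ | ‖φ (lam g)‖ ≤ 2 * ‖T‖ * ‖dl g - ζ‖} := by
    refine closure_minimal (fun ζ hζ => ?_) (isClosed_le continuous_const (by fun_prop))
    obtain ⟨y, m, rfl, c⟩ := h2 ζ hζ
    have := hφ _ (sub_mem (lam_mem g) m)
    have e1 : φ (lam g - y) = φ (lam g) := by
      simp only [φ, mul_sub, sub_mul, c.eq]; congr 2; abel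
    simpa [e1, lam_dl] using this
  have h4 := h3 (hd g)
  simp only [Set.mem_setOf_eq, sub_self, norm_zero, mul_zero, norm_le_zero_iff, φ, sub_apply,
    inner_sub_right, sub_eq_zero] at h4
  exact h4

lemma circle_unitary (z : Circle) : (z : ℂ) ∈ unitary ℂ := by
  rw [Unitary.mem_iff_self_mul_star, Complex.star_def, Complex.mul_conj', Circle.norm_coe]
  simp

lemma baire_closure {Y I : Type*} [UniformSpace Y] [CompleteSpace Y]
    [(uniformity Y).IsCountablyGenerated] [Countable I] (S : Set Y) (hS : S.Nonempty)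
    (O : I → Set Y) (ho : ∀ i, IsOpen (O i)) (hd : ∀ i, S ⊆ closure (S ∩ O i)) :
    ∃ y ∈ closure S, ∀ i, y ∈ O i := by
  have : CompleteSpace (closure S) := isClosed_closure.completeSpace_coe
  have : Nonempty (closure S) := hS.closure.to_subtype
  have h := dense_iInter_of_isOpen (f := fun i => (Subtype.val ⁻¹' O i : Set (closure S)))
    (fun i => (ho i).preimage continuous_subtype_val) fun i => by
      rw [Subtype.dense_iff]
      refine closure_minimal ((hd i).trans (closure_mono ?_)) isClosed_closure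
      rintro y ⟨h1, h2⟩
      exact ⟨⟨y, subset_closure h1⟩, h2, rfl⟩
  obtain ⟨y, hy⟩ := h.nonempty
  exact ⟨y, y.2, fun i => Set.mem_iInter.1 hy i⟩

end General

/-- The approximation lemma. -/
def MainStmt (κ : Type) [DecidableEq κ] : Prop :=
  ∀ a b t : κ, a ≠ b → a ≠ t → b ≠ t → ∀ ε : ℝ, 0 < ε →
    ∃ V : BH (FreeGroup κ), Aut V ∧
      ∃ W ∈ Subgroup.closure ({FreeGroup.of a, FreeGroup.of b} : Set (FreeGroup κ)),
        ∃ ω : Circle, (∀ i, i ≠ t → ‖V (dl (.of i)) - dl (.of i)‖ ≤ ε) ∧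
          ‖V (dl W) - (ω : ℂ) • dl (.of t)‖ ≤ ε

theorem iso_of_main (n : ℕ) (hn : 2 ≤ n) (hm : MainStmt (Fin (n + 1))) :
    ∃ Φ : MM (FreeGroup (Fin n)) ≃⋆ₐ[ℂ] MM (FreeGroup (Fin (n + 1))),
      ∀ x : MM (FreeGroup (Fin n)), groupTrace (FreeGroup (Fin (n + 1)))
        (Φ x : BH (FreeGroup (Fin (n + 1)))) = groupTrace _ (x : BH (FreeGroup (Fin n))) := by
  let j : FreeGroup (Fin n) →* FreeGroup (Fin (n + 1)) := FreeGroup.map Fin.succ
  have hj : Function.Injective j := FreeGroup.map_injective (Fin.succ_injective n)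
  let S : Set (FreeGroup (Fin n) → ltwo (FreeGroup (Fin (n + 1)))) :=
    {η | ∃ V, Aut V ∧ η = fun w => V (dl (j w))}
  let O : FreeGroup (Fin (n + 1)) × ℕ → Set (FreeGroup (Fin n) → ltwo (FreeGroup (Fin (n + 1)))) :=
    fun p => {η | ∃ (s : Finset (FreeGroup (Fin (n + 1)))) (φ : _ → FreeGroup (Fin n)) (c : _ → ℂ),
      ‖dl p.1 - ∑ γ ∈ s, c γ • η (φ γ)‖ < 1 / ((p.2 : ℝ) + 1)}
  have hmain : ∀ k : ℕ, ∃ V : BH (FreeGroup (Fin (n + 1))), Aut V ∧ ∃ W, ∃ ω : Circle,
      (∀ i : Fin n, ‖V (dl (.of i.succ)) - dl (.of i.succ)‖ ≤ 1 / ((k : ℝ) + 1)) ∧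
        ‖V (dl (j W)) - (ω : ℂ) • dl (.of 0)‖ ≤ 1 / ((k : ℝ) + 1) := fun k => by
    obtain ⟨V, hV, W, hW, ω, h1, h2⟩ := hm (Fin.succ ⟨0, by omega⟩) (Fin.succ ⟨1, by omega⟩) 0
      (by simp) (Fin.succ_ne_zero _) (Fin.succ_ne_zero _) _ (Nat.one_div_pos_of_nat (n := k))
    have : W ∈ j.range := by
      refine (Subgroup.closure_le _).2 ?_ hW
      rintro _ (rfl | rfl)
      · exact ⟨.of _, rfl⟩
      · exact ⟨.of _, rfl⟩
    obtain ⟨W, rfl⟩ := this
    exact ⟨V, hV, W, ω, fun i => h1 _ (Fin.succ_ne_zero _), h2⟩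
  choose Vk hVk Wk ωk h1k h2k using hmain
  have hlim := tendsto_one_div_add_atTop_nhds_zero_nat (𝕜 := ℝ)
  obtain ⟨η, hη, hO⟩ := baire_closure S ⟨_, 1, Aut.one, rfl⟩ O (fun p => by
      simp only [O, Set.setOf_exists]
      exact isOpen_iUnion fun s => isOpen_iUnion fun φ => isOpen_iUnion fun c =>
        isOpen_lt (by fun_prop) continuous_const) (by
      rintro ⟨g, m⟩ _ ⟨V, hV, rfl⟩
      have t1 : Tendsto (fun k => fun w => (V * Vk k) (dl (j w))) atTop
          (𝓝 fun w => V (dl (j w))) := by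
        refine tendsto_pi_nhds.2 fun w => ?_
        obtain ⟨C, hC, h⟩ := lipschitz (G := FreeGroup (Fin (n + 1))) w
        refine (V.continuous.tendsto _).comp (f := fun k => Vk k (dl (j w))) ?_
        rw [tendsto_iff_norm_sub_tendsto_zero]
        refine squeeze_zero (fun _ => norm_nonneg _) (fun k => ?_)
          (by simpa using hlim.const_mul C)
        have := h ((hVk k).rep.comp j) (lam.comp j) _ Nat.one_div_pos_of_nat.le
          (fun _ => (hVk k).rep_mem _) (fun _ => lam_mem _) (fun _ => (hVk k).rep_unitary _)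
          (fun _ => lam_unitary _) fun i => by
            simpa [Aut.rep_one, lam_dl, j] using h1k k i
        simpa [Aut.rep_one, lam_dl] using this
      refine mem_closure_of_tendsto t1 ?_
      obtain ⟨ζ, hζ, hd⟩ := Metric.mem_closure_iff.1 (dense_dl ((star V) (dl g))) _
        (Nat.one_div_pos_of_nat (n := m))
      obtain ⟨x, rfl⟩ := Finsupp.mem_span_range_iff_exists_finsupp.1 hζ
      choose C hC hL using fun γ : FreeGroup (Fin (n + 1)) =>
        lipschitz (G := FreeGroup (Fin (n + 1))) γ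
      have t2 := (hlim.const_mul (∑ γ ∈ x.support, ‖x γ‖ * C γ)).const_add
        (dist ((star V) (dl g)) (x.sum fun i a => a • dl i))
      rw [mul_zero, add_zero] at t2
      filter_upwards [t2.eventually (gt_mem_nhds hd)] with k hk
      refine ⟨⟨_, hV.mul (hVk k), rfl⟩, ?_⟩
      let φ : FreeGroup (Fin (n + 1)) →* FreeGroup (Fin n) :=
        FreeGroup.lift (Fin.cases (Wk k) FreeGroup.of)
      let χ : FreeGroup (Fin (n + 1)) →* Circle := FreeGroup.lift (Fin.cases (ωk k) fun _ => 1)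
      let π₂ : FreeGroup (Fin (n + 1)) →* BH (FreeGroup (Fin (n + 1))) :=
        { toFun := fun γ => (χ γ : ℂ) • lam γ
          map_one' := by simp
          map_mul' := fun a b => by simp [smul_smul, mul_comm] }
      have hb : ∀ γ, ‖Vk k (dl (j (φ γ))) - (χ γ : ℂ) • dl γ‖ ≤ C γ * (1 / ((k : ℝ) + 1)) :=
        fun γ => by
        have := hL γ ((hVk k).rep.comp (j.comp φ)) π₂ _ Nat.one_div_pos_of_nat.le
          (fun _ => (hVk k).rep_mem _) (fun _ => SMulMemClass.smul_mem _ (lam_mem _))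
          (fun _ => (hVk k).rep_unitary _)
          (fun γ => Unitary.smul_mem_of_mem (circle_unitary (χ γ)) (lam_unitary γ))
          fun i => by
            refine Fin.cases ?_ (fun i => ?_) i
            · simpa [Aut.rep_one, lam_dl, φ, χ, π₂] using h2k k
            · simpa [Aut.rep_one, lam_dl, φ, χ, π₂, j] using h1k k i
        simpa [Aut.rep_one, lam_dl, π₂] using this
      refine ⟨x.support, φ, fun γ => x γ * ((χ γ : ℂ))⁻¹, lt_of_le_of_lt ?_ hk⟩
      have e1 : dl g - ∑ γ ∈ x.support, (x γ * ((χ γ : ℂ))⁻¹) • (V * Vk k) (dl (j (φ γ))) =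
          V (((star V) (dl g) - x.sum fun i a => a • dl i) - ∑ γ ∈ x.support,
            (x γ * ((χ γ : ℂ))⁻¹) • (Vk k (dl (j (φ γ))) - (χ γ : ℂ) • dl γ)) := by
        have : V ((star V) (dl g)) = dl g := by
          rw [← mul_apply_eq_comp, hV.unit.2]; rfl
        simp [Finsupp.sum, smul_sub, smul_smul, mul_assoc, this]
      rw [e1, norm_unitary hV.unit, dist_eq_norm, Finset.sum_mul]
      refine (norm_sub_le _ _).trans (add_le_add le_rfl ((norm_sum_le _ _).trans
        (Finset.sum_le_sum fun γ _ => ?_)))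
      rw [norm_smul, norm_mul, norm_inv, Circle.norm_coe, inv_one, mul_one, mul_assoc]
      gcongr
      exact hb γ)
  refine iso_of_family η ?_ ?_ ?_ fun g => ?_
  · rw [orthonormal_iff_ite]
    intro u v
    refine closure_minimal (t := {η : FreeGroup (Fin n) → ltwo (FreeGroup (Fin (n + 1))) |
      ⟪η u, η v⟫_ℂ = if u = v then 1 else 0}) ?_
      (isClosed_eq (by fun_prop) continuous_const) hη
    rintro _ ⟨V, hV, rfl⟩
    change ⟪V _, V _⟫_ℂ = _
    rw [ContinuousLinearMap.inner_map_map_of_mem_unitary hV.unit, inner_dl, dl_apply]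
    simp only [hj.eq_iff]
  · refine closure_minimal
      (t := {η : FreeGroup (Fin n) → ltwo (FreeGroup (Fin (n + 1))) | η 1 = dl 1}) ?_
      (isClosed_eq (continuous_apply 1) continuous_const) hη
    rintro _ ⟨V, hV, rfl⟩
    simpa using hV.fix
  · intro T hT u v w
    refine closure_minimal (t := {η : FreeGroup (Fin n) → ltwo (FreeGroup (Fin (n + 1))) |
      ⟪η u, T (η (w * v))⟫_ℂ = ⟪η (w⁻¹ * u), T (η v)⟫_ℂ}) ?_
      (isClosed_eq (by fun_prop) (by fun_prop)) hη
    rintro _ ⟨V, hV, rfl⟩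
    change ⟪V _, T (V _)⟫_ℂ = ⟪V _, T (V _)⟫_ℂ
    rw [map_mul, map_mul, ← hV.rep_V, ← hV.rep_V, map_inv, ← star_rep _ hV.rep_unitary,
      ContinuousLinearMap.star_eq_adjoint, ContinuousLinearMap.adjoint_inner_left,
      ← mul_apply_eq_comp T, (mem_MM.1 (hV.rep_mem _) T hT).eq, mul_apply_eq_comp]
  · refine Metric.mem_closure_iff.2 fun ε hε => ?_
    obtain ⟨m, hm⟩ := exists_nat_one_div_lt hε
    obtain ⟨s, φ, c, h⟩ := hO (g, m)
    refine ⟨_, Submodule.sum_mem (t := s) _ fun γ _ => Submodule.smul_mem _ (c γ)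
      (Submodule.subset_span ⟨φ γ, rfl⟩), ?_⟩
    rw [dist_eq_norm]
    exact h.trans hm

end Crest.Agent.R134
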