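import Crest.Agent.R134.Alg

/-!
Row 134: a small approximate inverse of a Fox derivative.
-/

set_option autoImplicit false
set_option linter.unusedVariables false
set_option linter.unusedSectionVars false
set_option linter.deprecated false

open Crest.OpAlg Filter Topology FreeGroup
open scoped InnerProductSpace

namespace Crest.Agent.R134

/-- States: edges of a tree. -/
abbrev St := FreeGroup ℤ × ℤ

lemma sw_true {s : ℤ} {g : FreeGroup ℤ} (h : g ∉ startsWith (s, false)) :
    of s * g ∈ startsWith (s, true) := startsWith_mk_mul (w := (s, true)) g h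

lemma sw_false {s : ℤ} {g : FreeGroup ℤ} (h : g ∉ startsWith (s, true)) :
    (of s)⁻¹ * g ∈ startsWith (s, false) := startsWith_mk_mul (w := (s, false)) g h

lemma sw_uniq {w w' : ℤ × Bool} {g : FreeGroup ℤ} (h : g ∈ startsWith w)
    (h' : g ∈ startsWith w') : w = w' := Option.some_injective _ (h.symm.trans h')

/-- The edge points back. -/
def PB (x : St) : Prop := x.1 ∈ startsWith (x.2, true)
/-- Arrived in the positive direction. -/
def Ep (l : ℕ) (x : St) : Prop := x.1 ∈ startsWith (x.2 - l + 1, false)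
/-- Arrived in the negative direction. -/
def Em (l : ℕ) (x : St) : Prop := (of x.2)⁻¹ * x.1 ∈ startsWith (x.2 + l, true)
/-- Arrived at index `l`. -/
def EE (l : ℕ) (x : St) : Prop := Ep l x ∨ Em l x
/-- A path of edges. -/
def IsPath (e : ℕ → St) : Prop :=
  ∀ k, (e (k + 1)).2 = (e k).2 + k ∧ (e (k + 1)).1 = (of (e k).2)⁻¹ * (e k).1
/-- The path was entered at index `k`. -/
def Entry (k : ℕ) (e : ℕ → St) : Prop := ∃ l, l ≠ k ∧ EE l (e k)
/-- Non adjacent indices. -/
def Far (k l : ℕ) : Prop := k + 2 ≤ l ∨ l + 2 ≤ k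

instance (k l : ℕ) : Decidable (Far k l) := inferInstanceAs (Decidable (_ ∨ _))

lemma Ep.not {l : ℕ} {x : St} (h : Ep l x) : ¬PB x := fun h' => by simpa using sw_uniq h h'

lemma Em.pb {l : ℕ} {x : St} (h : Em l x) : PB x := by
  have := sw_true (s := x.2) fun h' => by simpa using sw_uniq h h'
  simpa [PB] using this

lemma EE.uniq {l l' : ℕ} {x : St} (h : EE l x) (h' : EE l' x) : l = l' := by
  rcases h with h | h <;> rcases h' with h' | h'
  · simpa using sw_uniq h h'
  · exact absurd h'.pb h.not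
  · exact absurd h.pb h'.not
  · simpa using sw_uniq h h'

section Path
variable {e : ℕ → St} (he : IsPath e)
include he

lemma IsPath.ep {k : ℕ} (h : ¬PB (e k)) : Ep (k + 1) (e (k + 1)) := by
  have := sw_false h
  rw [Ep, (he k).1, (he k).2]
  convert this using 3
  push_cast; ring

lemma IsPath.em {k : ℕ} (h : PB (e (k + 1))) : Em k (e k) := by
  rw [PB, (he k).1, (he k).2] at h
  exact h

lemma IsPath.up {k : ℕ} (h : Entry k e) : ¬PB (e (k + 1)) := by
  obtain ⟨l, hl, h | h⟩ := h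
  · exact (he.ep h.not).not
  · exact fun h' => hl (EE.uniq (Or.inr h) (Or.inr (he.em h')))

lemma IsPath.down {k : ℕ} (h : Entry (k + 1) e) : PB (e k) := by
  obtain ⟨l, hl, h | h⟩ := h
  · by_contra h'
    exact hl (EE.uniq (Or.inl h) (Or.inl (he.ep h')))
  · exact (he.em h.pb).pb

lemma IsPath.up' {k j : ℕ} (h : ¬PB (e k)) (hj : k ≤ j) : ¬PB (e j) := by
  induction j, hj using Nat.le_induction with
  | base => exact h
  | succ j _ ih => exact (he.ep ih).not

lemma IsPath.far {k l : ℕ} (h : Entry k e) (hl : Far k l) : EE l (e l) := by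
  rcases hl with hl | hl
  · obtain ⟨l, rfl⟩ : ∃ j, l = j + 1 := ⟨l - 1, by omega⟩
    exact Or.inl (he.ep (he.up' (he.up h) (by omega)))
  · obtain ⟨k, rfl⟩ : ∃ j, k = j + 1 := ⟨k - 1, by omega⟩
    refine Or.inr (he.em ?_)
    by_contra h'
    exact he.up' h' (by omega) (he.down h)

lemma IsPath.uniq {k k' : ℕ} (h : Entry k e) (h' : Entry k' e) : k = k' := by
  wlog hk : k < k' generalizing k k'
  · rcases (not_lt.1 hk).eq_or_lt with h1 | h1
    · exact h1.symm
    · exact (this h' h h1).symm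
  exfalso
  by_cases h2 : k + 2 ≤ k'
  · obtain ⟨l, hl, h'⟩ := h'
    exact hl (h'.uniq (he.far h (Or.inl h2)))
  · obtain rfl : k' = k + 1 := by omega
    have h3 := he.up h
    have h4 := he.down h'
    obtain ⟨l, -, h | h⟩ := h
    · exact h.not h4
    obtain ⟨l', -, h' | h'⟩ := h'
    · rw [Ep, (he k).2] at h'
      simpa using sw_uniq h h'
    · exact h3 h'.pb

end Path

/-- The permutation for the first generator. -/
def pA : Equiv.Perm St where
  toFun x := (of x.2 * x.1, x.2)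
  invFun x := ((of x.2)⁻¹ * x.1, x.2)
  left_inv x := by simp
  right_inv x := by simp

/-- The permutation for the second generator. -/
def pB : Equiv.Perm St where
  toFun x := (x.1, x.2 - 1)
  invFun x := (x.1, x.2 + 1)
  left_inv x := by simp
  right_inv x := by simp

lemma pB_pow (k : ℕ) (x : St) : (pB ^ k) x = (x.1, x.2 - k) := by
  induction k with
  | zero => simp
  | succ k ih => rw [pow_succ', Equiv.Perm.mul_apply, ih]; simp [pB, sub_sub]

variable {κ : Type} [DecidableEq κ] (a b : κ)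

/-- The prefixes. -/
def vv : ℕ → FreeGroup κ
  | 0 => 1
  | k + 1 => vv k * (of a * of b ^ k)

/-- The action on states. -/
def act : FreeGroup κ →* Equiv.Perm St :=
  FreeGroup.lift fun i => if i = a then pA else if i = b then pB else 1

/-- The base state. -/
def x0 : St := ((of 1)⁻¹, 0)

/-- The path of a group element. -/
def pth (g : FreeGroup κ) (k : ℕ) : St := act a b ((vv a b k)⁻¹ * g) x0

/-- Supports. -/
def SP : ℕ → ℕ → FreeGroup κ → Prop
  | 0, k, γ => γ = (vv a b k)⁻¹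
  | m + 1, k, γ => ∃ l, Far k l ∧ ∃ j, j ≠ l ∧ SP m j ((vv a b l)⁻¹ * (vv a b k * γ))

/-- The sums of alternating words of odd length. -/
noncomputable def SS (K : ℕ) : ℕ → ℕ → GA (FreeGroup κ)
  | 0, k => (K : ℂ)⁻¹ • sg (vv a b k)⁻¹
  | m + 1, k => sg (vv a b k)⁻¹ * ∑ l ∈ (Finset.range K).filter (Far k),
      (((Finset.range K).filter fun j => Far j l).card : ℂ)⁻¹ •
        (sg (vv a b l) * ∑ j ∈ (Finset.range K).erase l, SS K m j)

/-- The sums of alternating words of even length. -/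
noncomputable def TT (K m l : ℕ) : GA (FreeGroup κ) :=
  sg (vv a b l) * ∑ j ∈ (Finset.range K).erase l, SS a b K m j

variable {a b}

lemma vv_mem (k : ℕ) : vv a b k ∈ Subgroup.closure ({of a, of b} : Set (FreeGroup κ)) := by
  induction k with
  | zero => exact one_mem _
  | succ k ih =>
    exact mul_mem ih (mul_mem (Subgroup.subset_closure (by simp))
      (pow_mem (Subgroup.subset_closure (by simp)) _))

lemma pth_path (hab : a ≠ b) (g : FreeGroup κ) : IsPath (pth a b g) := fun k => by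
  have : pth a b g k = act a b (of a * of b ^ k) (pth a b g (k + 1)) := by
    rw [pth, pth, ← Equiv.Perm.mul_apply, ← _root_.map_mul, vv]
    congr 2; group
  rw [_root_.map_mul, map_pow, Equiv.Perm.mul_apply] at this
  simp only [act, FreeGroup.lift_apply_of, if_true, hab.symm, if_false, pB_pow] at this
  rw [this]
  simp [pA]

lemma base_EE (hab : a ≠ b) (k : ℕ) : EE k (pth a b 1 k) := by
  have h0 : Ep 0 (pth a b 1 0) := by
    have := sw_false (s := 1) (g := 1) fun h => startsWith.ne_one _ h rfl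
    simpa [Ep, pth, vv, x0] using this
  rcases k with _ | k
  · exact Or.inl h0
  · exact Or.inl ((pth_path hab 1).ep ((pth_path hab 1).up' h0.not (Nat.zero_le _)))

lemma SP.ee (hab : a ≠ b) : ∀ {m k : ℕ} {γ : FreeGroup κ}, SP a b m k γ → EE k (act a b γ x0)
  | 0, k, γ, h => by
    rw [SP] at h
    simpa [pth, h] using base_EE hab k
  | m + 1, k, γ, ⟨l, hl, j, hj, h⟩ => by
    have := (pth_path hab (vv a b k * γ)).far ⟨j, hj, h.ee hab⟩ (Or.symm hl)
    simpa [pth] using this

lemma SP.uniq (hab : a ≠ b) : ∀ {m m' k k' : ℕ} {γ : FreeGroup κ},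
    SP a b m k γ → SP a b m' k' γ → k = k' ∧ m = m' := by
  have h0 : ∀ {m k : ℕ} {γ : FreeGroup κ}, SP a b 0 k γ → ¬SP a b (m + 1) k γ := by
    rintro m k γ h ⟨l, -, j, hj, h'⟩
    rw [SP] at h
    have := h'.ee hab
    rw [h, mul_inv_cancel] at this
    exact hj (this.uniq (base_EE hab l))
  intro m
  induction m with
  | zero =>
    intro m' k k' γ h h'
    obtain rfl := (h.ee hab).uniq (h'.ee hab)
    rcases m' with _ | m'
    · exact ⟨rfl, rfl⟩
    · exact absurd h' (h0 h)
  | succ m ih =>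
    intro m' k k' γ h h'
    obtain rfl := (h.ee hab).uniq (h'.ee hab)
    rcases m' with _ | m'
    · exact absurd h (h0 h')
    · obtain ⟨l, -, j, hj, h⟩ := h
      obtain ⟨l', -, j', hj', h'⟩ := h'
      obtain rfl := (pth_path hab (vv a b k * γ)).uniq ⟨j, hj, h.ee hab⟩ ⟨j', hj', h'.ee hab⟩
      exact ⟨rfl, by rw [(ih h h').2]⟩

lemma SP.mem : ∀ {m k : ℕ} {γ : FreeGroup κ}, SP a b m k γ →
    γ ∈ Subgroup.closure ({of a, of b} : Set (FreeGroup κ))
  | 0, k, γ, h => by rw [SP] at h; rw [h]; exact inv_mem (vv_mem k)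
  | m + 1, k, γ, ⟨l, hl, j, hj, h⟩ => by
    have := mul_mem (inv_mem (vv_mem k)) (mul_mem (vv_mem l) h.mem)
    simpa using this

lemma coeff_sum_ne {G I : Type*} {s : Finset I} {x : I → GA G} {g : G}
    (h : (∑ i ∈ s, x i).coeff g ≠ 0) : ∃ i ∈ s, (x i).coeff g ≠ 0 := by
  rw [MonoidAlgebra.coeff_sum, Finsupp.finset_sum_apply] at h
  exact Finset.exists_ne_zero_of_sum_ne_zero h

lemma coeff_smul_ne {G : Type*} {c : ℂ} {x : GA G} {g : G}
    (h : (c • x).coeff g ≠ 0) : x.coeff g ≠ 0 := fun h' => h (by simp [h'])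

lemma SS_supp (K : ℕ) : ∀ {m k : ℕ} {γ : FreeGroup κ}, (SS a b K m k).coeff γ ≠ 0 → SP a b m k γ
  | 0, k, γ, h => by
    rw [SS] at h
    have := coeff_smul_ne h
    rw [SP]
    by_contra h'
    exact this (Finsupp.single_eq_of_ne h')
  | m + 1, k, γ, h => by
    rw [SS, coeff_sg_mul, inv_inv] at h
    obtain ⟨l, hl, h⟩ := coeff_sum_ne h
    have h := coeff_smul_ne h
    rw [coeff_sg_mul] at h
    obtain ⟨j, hj, h⟩ := coeff_sum_ne h
    exact ⟨l, (Finset.mem_filter.1 hl).2, j, (Finset.mem_erase.1 hj).1, SS_supp K h⟩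

lemma TT_supp (K : ℕ) {m l : ℕ} {g : FreeGroup κ} (h : (TT a b K m l).coeff g ≠ 0) :
    ∃ j, j ≠ l ∧ SP a b m j ((vv a b l)⁻¹ * g) := by
  rw [TT, coeff_sg_mul] at h
  obtain ⟨j, hj, h⟩ := coeff_sum_ne h
  exact ⟨j, (Finset.mem_erase.1 hj).1, SS_supp K h⟩

lemma TT_uniq (hab : a ≠ b) (K : ℕ) {m m' l l' : ℕ} {g : FreeGroup κ}
    (h : (TT a b K m l).coeff g ≠ 0) (h' : (TT a b K m' l').coeff g ≠ 0) : l = l' ∧ m = m' := by
  obtain ⟨j, hj, h⟩ := TT_supp K h
  obtain ⟨j', hj', h'⟩ := TT_supp K h'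
  obtain rfl := (pth_path hab g).uniq ⟨j, hj, h.ee hab⟩ ⟨j', hj', h'.ee hab⟩
  exact ⟨rfl, (h.uniq hab h').2⟩

lemma SS_real (K : ℕ) : ∀ (m k : ℕ) (γ : FreeGroup κ), ((SS a b K m k).coeff γ).im = 0
  | 0, k, γ => by
    rw [SS, ← Complex.ofReal_natCast, ← Complex.ofReal_inv]
    simp [Finsupp.single_apply, apply_ite Complex.im]
  | m + 1, k, γ => by
    rw [SS, coeff_sg_mul, MonoidAlgebra.coeff_sum, Finsupp.finset_sum_apply, Complex.im_sum]
    refine Finset.sum_eq_zero fun l _ => ?_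
    rw [MonoidAlgebra.coeff_smul_apply, coeff_sg_mul, MonoidAlgebra.coeff_sum,
      Finsupp.finset_sum_apply, ← Complex.ofReal_natCast, ← Complex.ofReal_inv, smul_eq_mul,
      Complex.im_ofReal_mul, Complex.im_sum, Finset.sum_eq_zero fun j _ => SS_real K m j _,
      mul_zero]

lemma card_far (K l : ℕ) : K ≤ ((Finset.range K).filter fun j => Far j l).card + 3 := by
  have h1 := Finset.card_filter_add_card_filter_not (s := Finset.range K) fun j => Far j l
  have h2 : ((Finset.range K).filter fun j => ¬Far j l) ⊆ {l - 1, l, l + 1} := by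
    intro j hj
    simp only [Finset.mem_filter, Far, Finset.mem_insert, Finset.mem_singleton] at hj ⊢
    omega
  have h3 := (Finset.card_le_card h2).trans Finset.card_le_three
  rw [Finset.card_range] at h1
  omega

lemma sum_far {E : Type*} [AddCommMonoid E] (K : ℕ) (f : ℕ → E) :
    ∑ k ∈ Finset.range K, ∑ l ∈ (Finset.range K).filter (Far k), f l =
      ∑ l ∈ Finset.range K, ((Finset.range K).filter fun j => Far j l).card • f l := by
  rw [Finset.sum_comm' (t' := Finset.range K) (s' := fun l => (Finset.range K).filter fun j => Far j l)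
    (by simp; tauto)]
  simp

lemma D_mul (K m : ℕ) : (∑ k ∈ Finset.range K, sg (vv a b k)) * ∑ k ∈ Finset.range K, SS a b K m k =
    ∑ l ∈ Finset.range K, TT a b K m l + ∑ k ∈ Finset.range K, sg (vv a b k) * SS a b K m k := by
  rw [Finset.sum_mul, ← Finset.sum_add_distrib]
  refine Finset.sum_congr rfl fun l hl => ?_
  rw [TT, ← mul_add, Finset.sum_erase_add _ _ hl]

lemma D_zero (K : ℕ) (hK : 0 < K) : ∑ k ∈ Finset.range K, sg (vv a b k) * SS a b K 0 k = 1 := by
  have : (K : ℂ) ≠ 0 := by exact_mod_cast hK.ne'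
  simp only [SS, mul_smul_comm, sg_mul, mul_inv_cancel, sg_one, Finset.sum_const,
    Finset.card_range]
  rw [← Nat.cast_smul_eq_nsmul ℂ, smul_smul, mul_inv_cancel₀ this, one_smul]

lemma D_succ (K m : ℕ) (hK : 3 < K) : ∑ k ∈ Finset.range K, sg (vv a b k) * SS a b K (m + 1) k =
    ∑ l ∈ Finset.range K, TT a b K m l := by
  simp only [SS, ← mul_assoc, sg_mul, mul_inv_cancel, sg_one, one_mul]
  rw [sum_far]
  refine Finset.sum_congr rfl fun l hl => ?_
  have : ((((Finset.range K).filter fun j => Far j l).card : ℕ) : ℂ) ≠ 0 := by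
    have := card_far K l
    exact_mod_cast (by omega)
  rw [← Nat.cast_smul_eq_nsmul ℂ, smul_smul, mul_inv_cancel₀ this, one_smul, TT]

lemma norm_SS (hab : a ≠ b) (K m : ℕ) (s : Finset ℕ) :
    ‖vec (∑ k ∈ s, SS a b K m k)‖ ^ 2 = ∑ k ∈ s, ‖vec (SS a b K m k)‖ ^ 2 :=
  pyth_vec _ _ fun i _ j _ g h h' => ((SS_supp K h).uniq hab (SS_supp K h')).1

lemma norm_TT (hab : a ≠ b) (K m : ℕ) : ∑ l ∈ Finset.range K, ‖vec (TT a b K m l)‖ ^ 2 ≤
    K * ∑ k ∈ Finset.range K, ‖vec (SS a b K m k)‖ ^ 2 := by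
  refine (Finset.sum_le_card_nsmul _ _ (∑ k ∈ Finset.range K, ‖vec (SS a b K m k)‖ ^ 2)
    fun l _ => ?_).trans_eq (by simp)
  rw [TT, norm_vec_sg_mul, norm_SS hab]
  exact Finset.sum_le_sum_of_subset_of_nonneg (Finset.erase_subset _ _) fun _ _ _ => by positivity

lemma sig_le (hab : a ≠ b) (κ' : ℕ) (hκ : 0 < κ') (m : ℕ) :
    ∑ k ∈ Finset.range (κ' + 3), ‖vec (SS a b (κ' + 3) m k)‖ ^ 2 ≤
      (((κ' + 3 : ℕ) : ℝ) / κ') ^ m / ((κ' + 3 : ℕ) : ℝ) := by
  set K := κ' + 3 with hK
  have hK0 : (0 : ℝ) < K := by positivity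
  have hκ0 : (0 : ℝ) < κ' := by positivity
  induction m with
  | zero =>
    simp only [SS, map_smul, vec_sg, norm_smul, norm_dl, norm_inv, Complex.norm_natCast,
      Finset.sum_const, Finset.card_range, nsmul_eq_mul]
    apply le_of_eq; field_simp
  | succ m ih =>
    have h1 : ∀ k, ‖vec (SS a b K (m + 1) k)‖ ^ 2 = ∑ l ∈ (Finset.range K).filter (Far k),
        ((((Finset.range K).filter fun j => Far j l).card : ℝ)⁻¹) ^ 2 *
          ‖vec (TT a b K m l)‖ ^ 2 := fun k => by
      rw [SS, norm_vec_sg_mul, pyth_vec]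
      · simp [norm_smul, mul_pow, TT]
      · exact fun i _ j _ g h h' => (TT_uniq hab K (coeff_smul_ne h) (coeff_smul_ne h')).1
    simp only [h1]
    rw [sum_far]
    calc _ ≤ ∑ l ∈ Finset.range K, (κ' : ℝ)⁻¹ * ‖vec (TT a b K m l)‖ ^ 2 := by
          refine Finset.sum_le_sum fun l _ => ?_
          have h2 : (κ' : ℝ) ≤ ((Finset.range K).filter fun j => Far j l).card := by
            have := card_far K l
            exact_mod_cast (by omega)
          have h3 := hκ0.trans_le h2
          rw [nsmul_eq_mul, ← mul_assoc, sq, ← mul_assoc, mul_inv_cancel₀ h3.ne', one_mul]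
          gcongr
      _ ≤ (κ' : ℝ)⁻¹ * (K * (((K : ℝ) / κ') ^ m / K)) := by
          rw [← Finset.mul_sum]
          gcongr
          exact (norm_TT hab K m).trans (by gcongr)
      _ = _ := by rw [pow_succ]; field_simp

theorem comb (hab : a ≠ b) (ε : ℝ) (hε : 0 < ε) : ∃ (K : ℕ) (c : GA (FreeGroup κ)),
    (∀ γ, c.coeff γ ≠ 0 → γ ∈ Subgroup.closure ({of a, of b} : Set (FreeGroup κ))) ∧
    (∀ γ, (c.coeff γ).im = 0) ∧ ‖vec c‖ ≤ ε ∧
    ‖vec ((∑ k ∈ Finset.range K, sg (vv a b k)) * c - 1)‖ ≤ ε := by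
  obtain ⟨M, hM⟩ : ∃ M : ℕ, 2 / ε ^ 2 < M := exists_nat_gt _
  have hM0 : (0 : ℝ) < M := lt_trans (by positivity) hM
  have t1 : Tendsto (fun κ' : ℕ => (((κ' + 3 : ℕ) : ℝ) / κ') ^ M) atTop (𝓝 1) := by
    have := ((tendsto_const_div_atTop_nhds_zero_nat (3 : ℝ)).const_add 1).pow M
    rw [add_zero, one_pow] at this
    refine this.congr' ?_
    filter_upwards [eventually_gt_atTop 0] with k hk
    congr 1; push_cast; field_simp
  obtain ⟨κ', h1, h2, h3⟩ := ((t1.eventually (gt_mem_nhds one_lt_two)).and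
    ((eventually_gt_atTop 0).and
      ((tendsto_natCast_atTop_atTop (R := ℝ)).eventually_gt_atTop (2 * M ^ 2 / ε ^ 2)))).exists
  set K := κ' + 3 with hK
  have hK0 : (0 : ℝ) < K := by positivity
  have hκ0 : (0 : ℝ) < κ' := by positivity
  have hsig : ∀ m < M, ∑ k ∈ Finset.range K, ‖vec (SS a b K m k)‖ ^ 2 ≤ 2 / K := fun m hm => by
    refine (sig_le hab κ' h2 m).trans ?_
    gcongr
    refine le_trans (pow_le_pow_right₀ ?_ hm.le) h1.le
    rw [one_le_div hκ0]; exact_mod_cast (by omega)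
  let w : ℕ → ℝ := fun m => (-1) ^ m * (1 - m / M)
  refine ⟨K, ∑ m ∈ Finset.range M, (w m : ℂ) • ∑ k ∈ Finset.range K, SS a b K m k,
    fun γ h => ?_, fun γ => ?_, ?_, ?_⟩
  · obtain ⟨m, -, h⟩ := coeff_sum_ne h
    obtain ⟨k, -, h⟩ := coeff_sum_ne (coeff_smul_ne h)
    exact (SS_supp K h).mem
  · rw [MonoidAlgebra.coeff_sum, Finsupp.finset_sum_apply, Complex.im_sum]
    refine Finset.sum_eq_zero fun m _ => ?_
    rw [MonoidAlgebra.coeff_smul_apply, MonoidAlgebra.coeff_sum,
      Finsupp.finset_sum_apply, smul_eq_mul,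
      Complex.im_ofReal_mul, Complex.im_sum, Finset.sum_eq_zero fun j _ => SS_real K m j _,
      mul_zero]
  · rw [map_sum]
    refine (norm_sum_le _ _).trans ((Finset.sum_le_card_nsmul _ _ (ε / M) fun m hm => ?_).trans_eq
      (by simp; field_simp))
    have hm := Finset.mem_range.1 hm
    have h4 : ‖(w m : ℂ)‖ ≤ 1 := by
      have : (m : ℝ) / M ≤ 1 := by rw [div_le_one hM0]; exact_mod_cast hm.le
      have h0 : (0 : ℝ) ≤ m / M := by positivity
      rw [Complex.norm_real, norm_mul, norm_pow, norm_neg, NormOneClass.norm_one, one_pow, one_mul,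
        Real.norm_eq_abs, abs_le]
      constructor <;> linarith
    rw [map_smul, norm_smul]
    refine (mul_le_of_le_one_left (norm_nonneg _) h4).trans ?_
    refine le_of_sq_le_sq ?_ (by positivity)
    rw [norm_SS hab]
    refine (hsig m hm).trans ?_
    rw [div_lt_iff₀ (by positivity)] at h3
    rw [div_pow, div_le_div_iff₀ hK0 (by positivity)]
    have : (κ' : ℝ) ≤ K := by exact_mod_cast (by omega)
    nlinarith [sq_nonneg ε]
  · have e1 : (∑ k ∈ Finset.range K, sg (vv a b k)) *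
        (∑ m ∈ Finset.range M, (w m : ℂ) • ∑ k ∈ Finset.range K, SS a b K m k) - 1 =
        ∑ m ∈ Finset.range M, (((-1) ^ m / M : ℝ) : ℂ) • ∑ l ∈ Finset.range K, TT a b K m l := by
      obtain ⟨M', rfl⟩ : ∃ j, M = j + 1 := ⟨M - 1, by have : 0 < M := by exact_mod_cast hM0
                                                      omega⟩
      simp only [Finset.mul_sum (Finset.range (M' + 1)), mul_smul_comm, D_mul, smul_add,
        Finset.sum_add_distrib]
      rw [Finset.sum_range_succ' fun m => (w m : ℂ) • ∑ k ∈ Finset.range K,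
        sg (vv a b k) * SS a b K m k]
      simp only [D_succ K _ (by omega : 3 < K), D_zero K (by omega : 0 < K)]
      have h5 : w 0 = 1 := by simp [w]
      have h6 : w (M' + 1) = 0 := by simp only [w]; rw [div_self hM0.ne']; simp
      have h7 := Finset.sum_range_succ (fun m => (w (m + 1) : ℂ) • ∑ l ∈ Finset.range K,
        TT a b K m l) M'
      rw [h6, Complex.ofReal_zero, zero_smul, add_zero] at h7
      rw [← h7, h5, Complex.ofReal_one, one_smul, ← add_assoc, add_sub_cancel_right,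
        ← Finset.sum_add_distrib]
      refine Finset.sum_congr rfl fun m _ => ?_
      rw [← add_smul, ← Complex.ofReal_add]
      congr 2
      simp only [w]; push_cast; field_simp; ring
    rw [e1]
    refine le_of_sq_le_sq ?_ hε.le
    rw [pyth_vec _ _ fun i _ j _ g h h' => by
      obtain ⟨l, -, h⟩ := coeff_sum_ne (coeff_smul_ne h)
      obtain ⟨l', -, h'⟩ := coeff_sum_ne (coeff_smul_ne h')
      exact (TT_uniq hab K h h').2]
    refine (Finset.sum_le_card_nsmul _ _ (2 / (M : ℝ) ^ 2) fun m hm => ?_).trans ?_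
    · rw [map_smul, norm_smul, mul_pow, pyth_vec _ _ fun i _ j _ g h h' => (TT_uniq hab K h h').1]
      have h4 : ‖(((-1) ^ m / M : ℝ) : ℂ)‖ = 1 / M := by simp
      rw [h4]
      calc _ ≤ (1 / (M : ℝ)) ^ 2 * (K * (2 / K)) := by
            gcongr
            exact (norm_TT hab K m).trans (by gcongr; exact hsig m (Finset.mem_range.1 hm))
        _ = _ := by field_simp
    · rw [div_lt_iff₀ (by positivity)] at hM
      rw [Finset.card_range, nsmul_eq_mul]
      calc _ = 2 / (M : ℝ) := by field_simp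
        _ ≤ _ := by rw [div_le_iff₀ hM0]; linarith

end Crest.Agent.R134
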