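import Crest.Agent.R134.Alg

/-!
Row 134: divergence free derivations of the algebra of a free group.
-/

set_option autoImplicit false
set_option linter.unusedVariables false
set_option linter.unusedSectionVars false
set_option linter.deprecated false

open Crest.OpAlg Filter Topology
open scoped InnerProductSpace Nat

namespace Crest.Agent.R134

variable {κ : Type} [DecidableEq κ]

open TrivSqZeroExt in
lemma exists_der (y : κ → GA (FreeGroup κ)) :
    ∃ δ : GA (FreeGroup κ) →ₗ[ℂ] GA (FreeGroup κ), (∀ x z, δ (x * z) = δ x * z + x * δ z) ∧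
      ∀ i, δ (sg (.of i)) = y i * sg (.of i) := by
  let u : κ → (DualNumber (GA (FreeGroup κ)))ˣ := fun i =>
    { val := inl (sg (.of i)) + inr (y i * sg (.of i))
      inv := inl (sg (.of i)⁻¹) - inr (sg (.of i)⁻¹ * y i)
      val_inv := by
        ext1
        · simp [sg_mul, sg_one]
        · simp [← mul_assoc, sg_mul, sg_one]
          simp [mul_assoc, sg_mul, sg_one]
      inv_val := by
        ext1
        · simp [sg_mul, sg_one]
        · simp [mul_assoc] }
  let Φ : GA (FreeGroup κ) →ₐ[ℂ] DualNumber (GA (FreeGroup κ)) :=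
    MonoidAlgebra.lift ℂ _ _ ((Units.coeHom _).comp (FreeGroup.lift u))
  have hΦ : ∀ i, Φ (sg (.of i)) = inl (sg (.of i)) + inr (y i * sg (.of i)) := fun i => by
    simp [Φ, u]
  have hf : ∀ x, (Φ x).fst = x := by
    have : (fstHom ℂ _ _).comp Φ = AlgHom.id ℂ _ := by
      refine (MonoidAlgebra.lift ℂ _ _).symm.injective (MonoidHom.ext fun g => ?_)
      simp only [MonoidAlgebra.lift_symm_apply, AlgHom.comp_apply, AlgHom.id_apply]
      induction g using FreeGroup.induction_on with
      | C1 => exact map_one ((fstHom ℂ _ _).comp Φ)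
      | of i => rw [hΦ]; simp
      | inv_of i => simp [Φ, u, ← Units.val_inv_eq_inv_val]
      | mul g h hg hh =>
        change fstHom ℂ _ _ (Φ (sg (g * h))) = sg (g * h)
        rw [← sg_mul, map_mul, map_mul, hg, hh]
    exact fun x => congr($this x)
  refine ⟨{ toFun := fun x => (Φ x).snd
            map_add' := fun x z => by simp
            map_smul' := fun c x => by simp }, fun x z => ?_, fun i => ?_⟩
  · simp [hf, add_comm]
  · simp [hΦ]

/-- Elements of bounded length and bounded `ℓ¹` size. -/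
inductive Bd (m : ℕ) : ℝ → GA (FreeGroup κ) → Prop
  | single (g : FreeGroup κ) (c : ℂ) (h : g.norm ≤ m) : Bd m ‖c‖ (MonoidAlgebra.single g c)
  | add {C D : ℝ} {x y : GA (FreeGroup κ)} : Bd m C x → Bd m D y → Bd m (C + D) (x + y)
  | mono {C D : ℝ} {x : GA (FreeGroup κ)} : Bd m C x → C ≤ D → Bd m D x

lemma Bd.norm_le {m : ℕ} {C : ℝ} {x : GA (FreeGroup κ)} (h : Bd m C x) : ‖io x‖ ≤ C := by
  induction h with
  | single g c h =>
    rw [io_single, norm_smul]
    refine mul_le_of_le_one_right (norm_nonneg _) ?_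
    exact ContinuousLinearMap.opNorm_le_bound _ zero_le_one fun η => by
      rw [norm_unitary (lam_unitary g), one_mul]
  | add _ _ h1 h2 => rw [map_add]; exact (norm_add_le _ _).trans (add_le_add h1 h2)
  | mono _ h h1 => exact h1.trans h

lemma Bd.mul {m m' : ℕ} {C C' : ℝ} {x y : GA (FreeGroup κ)} (h : Bd m C x) (h' : Bd m' C' y) :
    Bd (m + m') (C * C') (x * y) := by
  induction h with
  | single g c h =>
    induction h' with
    | single g' c' h' =>
      rw [MonoidAlgebra.single_mul_single, ← norm_mul]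
      exact .single _ _ ((FreeGroup.norm_mul_le _ _).trans (add_le_add h h'))
    | add _ _ h1 h2 => rw [mul_add, mul_add]; exact h1.add h2
    | mono _ h h1 => exact h1.mono (by gcongr)
  | add _ _ h1 h2 => rw [add_mul, add_mul]; exact h1.add h2
  | mono _ h h1 => exact h1.mono (by have := (norm_nonneg _).trans h'.norm_le; gcongr)

lemma Bd.sg {m : ℕ} {g : FreeGroup κ} (h : g.norm ≤ m) : Bd m 1 (sg g) := by
  simpa using Bd.single g 1 h

lemma Bd.up {m m' : ℕ} {C : ℝ} {x : GA (FreeGroup κ)} (h : Bd m C x) (hm : m ≤ m') :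
    Bd m' C x := by
  obtain ⟨k, rfl⟩ := Nat.exists_eq_add_of_le hm
  simpa [sg_one] using h.mul (Bd.sg (m := k) (g := 1) (by simp))

lemma Bd.smul {m : ℕ} {C : ℝ} {x : GA (FreeGroup κ)} (h : Bd m C x) (c : ℂ) :
    Bd m (‖c‖ * C) (c • x) := by
  have := (Bd.single (m := 0) 1 c (by simp)).mul h
  rwa [zero_add, single_eq_sg, sg_one, smul_mul_assoc, one_mul] at this

lemma Bd.zero (m : ℕ) : Bd m 0 (0 : GA (FreeGroup κ)) := by
  simpa using Bd.single (κ := κ) (m := m) 1 0 (by simp)

lemma exists_Bd (x : GA (FreeGroup κ)) : ∃ m C, Bd m C x := by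
  induction x using MonoidAlgebra.induction_linear with
  | zero => exact ⟨0, 0, .zero 0⟩
  | add x y hx hy =>
    obtain ⟨m, C, hx⟩ := hx
    obtain ⟨m', C', hy⟩ := hy
    exact ⟨_, _, (hx.up (le_max_left m m')).add (hy.up (le_max_right m m'))⟩
  | single g c => exact ⟨_, _, .single g c le_rfl⟩

section Der
variable {δ : GA (FreeGroup κ) →ₗ[ℂ] GA (FreeGroup κ)}
  (hL : ∀ x y, δ (x * y) = δ x * y + x * δ y)
include hL

lemma der_inv (g : FreeGroup κ) : δ (sg g⁻¹) = -(sg g⁻¹ * δ (sg g) * sg g⁻¹) := by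
  have h1 : δ 1 = 0 := by simpa using hL 1 1
  have h := hL (sg g⁻¹) (sg g)
  rw [sg_mul, inv_mul_cancel, sg_one, h1] at h
  have := congrArg (· * sg g⁻¹) h
  simp only [add_mul, zero_mul, mul_assoc, sg_mul, mul_inv_cancel, sg_one, mul_one] at this
  rw [mul_assoc]
  exact eq_neg_of_add_eq_zero_left this.symm

lemma growth {L : ℕ} {C : ℝ} (y : κ → GA (FreeGroup κ))
    (hy : ∀ i, δ (sg (.of i)) = y i * sg (.of i)) (hb : ∀ i, Bd L C (y i)) (hC : 0 ≤ C) :
    ∃ r : ℝ, 0 < r ∧ ∀ x, Summable fun k => r ^ k / k ! * ‖io ((δ ^ k) x)‖ := by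
  have h1 : ∀ w : List (κ × Bool), Bd (w.length + L) (C * w.length) (δ (sg (.mk w))) := by
    intro w
    induction w with
    | nil =>
      have h1 : δ 1 = 0 := by simpa using hL 1 1
      rw [← FreeGroup.one_eq_mk, sg_one, h1]; simpa using Bd.zero L
    | cons p w ih =>
      have h2 : Bd (1 + L) C (δ (sg (.mk [p]))) := by
        obtain ⟨i, _ | _⟩ := p
        · change Bd _ _ (δ (sg (FreeGroup.of i)⁻¹))
          rw [der_inv hL, hy, mul_assoc, mul_assoc, sg_mul, mul_inv_cancel, sg_one, mul_one]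
          simpa using ((Bd.sg (m := 1) (g := (FreeGroup.of i)⁻¹) (by simp)).mul (hb i)).smul (-1)
        · change Bd _ _ (δ (sg (FreeGroup.of i)))
          rw [hy, add_comm]
          simpa using (hb i).mul (Bd.sg (m := 1) (g := FreeGroup.of i) (by simp))
      rw [← List.singleton_append, ← FreeGroup.mul_mk, ← sg_mul, hL]
      refine (((h2.mul (Bd.sg FreeGroup.norm_mk_le)).up ?_).add
        (((Bd.sg FreeGroup.norm_mk_le).mul ih).up ?_)).mono (le_of_eq ?_)
      · simp; omega
      · simp; omega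
      · simp; ring
  have h2 : ∀ {m D x}, Bd m D x → Bd (m + L) (C * m * D) (δ x) := by
    intro m D x h
    induction h with
    | single g c h =>
      rw [single_eq_sg, map_smul, mul_comm]
      have := h1 g.toWord
      rw [FreeGroup.mk_toWord] at this
      exact ((this.up (Nat.add_le_add_right h L)).mono (by
        gcongr; exact h)).smul c
    | add _ _ h1 h2 => rw [map_add, mul_add]; exact h1.add h2
    | mono _ h h1 => exact h1.mono (by gcongr)
  refine ⟨1 / (4 * (C * L + 1)), by positivity, fun x => ?_⟩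
  obtain ⟨m, D, hx⟩ := exists_Bd x
  have hD := (norm_nonneg _).trans hx.norm_le
  let f : ℕ → ℝ := fun k => (∏ j ∈ Finset.range k, C * (m + j * L)) * D
  have h3 : ∀ k, Bd (m + k * L) (f k) ((δ ^ k) x) := fun k => by
    induction k with
    | zero => simpa [f] using hx
    | succ k ih =>
      rw [pow_succ', Module.End.mul_apply, Nat.succ_mul, ← add_assoc]
      refine (h2 ih).mono (le_of_eq ?_)
      simp only [f, Finset.prod_range_succ]; push_cast; ring
  set r : ℝ := 1 / (4 * (C * L + 1)) with hr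
  have hr0 : 0 < r := by positivity
  have hf : ∀ k, 0 ≤ f k := fun k => (norm_nonneg _).trans (h3 k).norm_le
  refine Summable.of_nonneg_of_le (f := fun k => r ^ k / k ! * f k) (fun _ => by positivity)
    (fun k => by gcongr; exact (h3 k).norm_le) ?_
  refine summable_of_ratio_norm_eventually_le (r := 1 / 2) (by norm_num) ?_
  filter_upwards [(tendsto_natCast_atTop_atTop (R := ℝ)).eventually_ge_atTop (4 * r * C * m)]
    with k hk
  have := hf k
  have := hf (k + 1)
  rw [Real.norm_of_nonneg (by positivity), Real.norm_of_nonneg (by positivity)]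
  have e : r ^ (k + 1) / (k + 1)! * f (k + 1) =
      (r * C * (m + k * L) / (k + 1)) * (r ^ k / k ! * f k) := by
    have : f (k + 1) = C * (m + k * L) * f k := by simp only [f, Finset.prod_range_succ]; ring
    rw [this, Nat.factorial_succ, pow_succ]; push_cast; field_simp
  rw [e]
  refine mul_le_mul_of_nonneg_right ?_ (by positivity)
  rw [div_le_iff₀ (by positivity)]
  have h4 : r * (C * L) ≤ 1 / 4 := by
    rw [hr, div_mul_eq_mul_div, div_le_iff₀ (by positivity)]; nlinarith
  have h5 : (0 : ℝ) ≤ k := by positivity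
  nlinarith [mul_le_mul_of_nonneg_right h4 h5]

lemma cocycle_mem (y : κ → GA (FreeGroup κ)) (hy : ∀ i, δ (sg (.of i)) = y i * sg (.of i))
    (Q : AddSubgroup (GA (FreeGroup κ))) (hQ : ∀ g, ∀ x ∈ Q, sg g * x * sg g⁻¹ ∈ Q)
    (hyQ : ∀ i, y i ∈ Q) (g : FreeGroup κ) : δ (sg g) * sg g⁻¹ ∈ Q := by
  induction g using FreeGroup.induction_on with
  | C1 =>
    have h1 : δ 1 = 0 := by simpa using hL 1 1
    rw [sg_one, h1, zero_mul]; exact zero_mem _
  | of i => simpa [hy, mul_assoc, sg_mul, sg_one] using hyQ i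
  | inv_of i =>
    have := neg_mem (hQ (.of i)⁻¹ _ (hyQ i))
    rw [der_inv hL, hy]
    simpa [mul_assoc, sg_mul, sg_one] using this
  | mul g h hg hh =>
    have := add_mem hg (hQ g _ hh)
    rw [← sg_mul, hL, mul_inv_rev, ← sg_mul, add_mul]
    convert this using 2
    · rw [mul_assoc, ← mul_assoc (sg h), sg_mul, mul_inv_cancel, sg_one, one_mul]
    · simp only [mul_assoc]

lemma der_zpow {t : FreeGroup κ} (ht : δ (sg t) = 0) (k : ℤ) : δ (sg (t ^ k)) = 0 := by
  induction k using Int.induction_on with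
  | zero => simpa [sg_one] using hL 1 1
  | succ k ih => rw [zpow_add_one, ← sg_mul, hL, ih, ht]; simp
  | pred k ih => rw [zpow_sub_one, ← sg_mul, hL, ih, der_inv hL, ht]; simp

lemma der_trace (y : κ → GA (FreeGroup κ)) (hy : ∀ i, δ (sg (.of i)) = y i * sg (.of i))
    {t : FreeGroup κ} (ht : δ (sg t) = 0)
    (hs : ∀ i z, (y i).coeff z ≠ 0 → ∃ η, ∃ k : ℤ, z = η * t ^ k * η⁻¹) (g : FreeGroup κ) :
    (δ (sg g)).coeff 1 = 0 := by
  let Q : AddSubgroup (GA (FreeGroup κ)) :=
    { carrier := {x | ∀ z, x.coeff z ≠ 0 → ∃ η, ∃ k : ℤ, z = η * t ^ k * η⁻¹}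
      zero_mem' := fun z h => absurd rfl h
      add_mem' := fun {x x'} hx hx' z h => by
        by_cases h1 : x.coeff z = 0
        · exact hx' z (by simpa [h1] using h)
        · exact hx z h1
      neg_mem' := fun {x} hx z h => hx z (by simpa using h) }
  have h1 := cocycle_mem hL y hy Q (fun g x hx z h => by
    rw [coeff_mul_sg, coeff_sg_mul] at h
    obtain ⟨η, k, h⟩ := hx _ h
    refine ⟨g * η, k, ?_⟩
    calc z = g * (g⁻¹ * (z * g⁻¹⁻¹)) * g⁻¹ := by group
      _ = _ := by rw [h]; group) hs g g⁻¹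
  by_contra h2
  obtain ⟨η, k, h⟩ := h1 (by simpa [coeff_mul_sg] using h2)
  have h3 : g = η * t ^ (-k) * η⁻¹ := by rw [← inv_inv g, h]; group
  apply h2
  rw [h3, ← sg_mul, ← sg_mul, hL, hL, der_zpow hL ht, der_inv hL]
  simp only [mul_zero, add_zero, mul_neg, ← mul_assoc, sg_mul, MonoidAlgebra.coeff_add,
    MonoidAlgebra.coeff_neg, Finsupp.add_apply, Finsupp.neg_apply, coeff_mul_sg, coeff_sg_mul]
  rw [add_neg_eq_zero]
  congr 1; group

lemma der_skew (y : κ → GA (FreeGroup κ)) (hy : ∀ i, δ (sg (.of i)) = y i * sg (.of i))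
    (htr : ∀ g, (δ (sg g)).coeff 1 = 0) (hs : ∀ i, star (io (y i)) = -io (y i))
    (x z : GA (FreeGroup κ)) : ⟪vec (δ x), vec z⟫_ℂ + ⟪vec x, vec (δ z)⟫_ℂ = 0 := by
  let Q : AddSubgroup (GA (FreeGroup κ)) :=
    { carrier := {x | star (io x) = -io x}
      zero_mem' := by simp
      add_mem' := fun {x x'} (hx : _ = _) (hx' : _ = _) => by
        change _ = _
        rw [map_add, star_add, hx, hx', neg_add]
      neg_mem' := fun {x} (hx : _ = _) => by
        change _ = _
        rw [map_neg, star_neg, hx] }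
  have h1 : ∀ g, star (io (δ (sg g) * sg g⁻¹)) = -io (δ (sg g) * sg g⁻¹) :=
    cocycle_mem hL y hy Q (fun g x (hx : _ = _) => by
      change _ = _
      simp [io_sg, star_lam, hx, mul_assoc]) hs
  induction x using MonoidAlgebra.induction_on with
  | add x x' hx hx' => simp only [map_add, inner_add_left]; linear_combination hx + hx'
  | smul c x hx => simp only [map_smul, inner_smul_left, ← mul_add, hx, mul_zero]
  | of g =>
    induction z using MonoidAlgebra.induction_on with
    | add x x' hx hx' => simp only [map_add, inner_add_right]; linear_combination hx + hx'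
    | smul c x hx => simp only [map_smul, inner_smul_right, ← mul_add, hx, mul_zero]
    | of h =>
      obtain ⟨w, rfl⟩ : ∃ w, h = g * w := ⟨g⁻¹ * h, by simp⟩
      change ⟪vec (δ (sg g)), vec (sg (g * w))⟫_ℂ + ⟪vec (sg g), vec (δ (sg (g * w)))⟫_ℂ = 0
      have e1 : δ (sg g) = δ (sg g) * sg g⁻¹ * sg g := by simp [mul_assoc, sg_mul, sg_one]
      have e2 : δ (sg (g * w)) = δ (sg g) * sg g⁻¹ * sg (g * w) + sg g * δ (sg w) := by
        rw [mul_assoc, sg_mul, inv_mul_cancel_left, ← hL, sg_mul]
      rw [e2, map_add, inner_add_right, e1, vec_mul, ← ContinuousLinearMap.adjoint_inner_right,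
        ← ContinuousLinearMap.star_eq_adjoint, h1, ← e1, vec_mul _ (sg (g * w)), vec_sg g,
        inner_dl, inner_dl, inner_dl, vec_apply, coeff_sg_mul, inv_mul_cancel, htr]
      simp

end Der

end Crest.Agent.R134
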