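import Crest.Agent.R134.Alg

/-!
Row 134: integrating an analytic trace killing derivation of the group algebra.
-/

set_option autoImplicit false
set_option linter.unusedVariables false
set_option linter.unusedSectionVars false
set_option linter.deprecated false

open Crest.OpAlg Filter Topology Finset
open scoped InnerProductSpace Nat

namespace Crest.Agent.R134

variable {G : Type*} [Group G] [DecidableEq G] {δ : GA G →ₗ[ℂ] GA G}

lemma leibniz (hL : ∀ x y, δ (x * y) = δ x * y + x * δ y) (x y : GA G) (n : ℕ) :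
    (δ ^ n) (x * y) = ∑ p ∈ antidiagonal n, n.choose p.1 • ((δ ^ p.1) x * (δ ^ p.2) y) := by
  induction n with
  | zero => simp
  | succ n ih =>
    rw [sum_antidiagonal_choose_succ_nsmul fun i j => (δ ^ i) x * (δ ^ j) y, pow_succ',
      Module.End.mul_apply, ih, map_sum, ← sum_add_distrib]
    refine sum_congr rfl fun p hp => ?_
    rw [map_nsmul, hL, smul_add, add_comm, ← Nat.choose_symm_of_eq_add (mem_antidiagonal.1 hp).symm]
    simp only [pow_succ', Module.End.mul_apply]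

lemma der_one (hL : ∀ x y, δ (x * y) = δ x * y + x * δ y) : δ 1 = 0 := by
  simpa using hL 1 1

lemma skew_sum (hS : ∀ x y, ⟪vec (δ x), vec y⟫_ℂ + ⟪vec x, vec (δ y)⟫_ℂ = 0) (x y : GA G) (n : ℕ) :
    ∑ p ∈ antidiagonal (n + 1),
      (n + 1).choose p.1 • ⟪vec ((δ ^ p.1) x), vec ((δ ^ p.2) y)⟫_ℂ = 0 := by
  rw [sum_antidiagonal_choose_succ_nsmul fun i j => ⟪vec ((δ ^ i) x), vec ((δ ^ j) y)⟫_ℂ,
    ← sum_add_distrib]
  refine sum_eq_zero fun p hp => ?_
  rw [← Nat.choose_symm_of_eq_add (mem_antidiagonal.1 hp).symm, ← smul_add, add_comm]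
  simp only [pow_succ', Module.End.mul_apply, hS, smul_zero]

lemma skew_pow (hS : ∀ x y, ⟪vec (δ x), vec y⟫_ℂ + ⟪vec x, vec (δ y)⟫_ℂ = 0) (n : ℕ)
    (x y : GA G) : ⟪vec ((δ ^ n) x), vec y⟫_ℂ = (-1) ^ n * ⟪vec x, vec ((δ ^ n) y)⟫_ℂ := by
  induction n generalizing y with
  | zero => simp
  | succ n ih =>
    conv_lhs => rw [pow_succ', Module.End.mul_apply, eq_neg_of_add_eq_zero_left (hS _ _), ih]
    rw [pow_succ δ, Module.End.mul_apply]; ring

variable (δ) in
/-- Terms of the exponential series. -/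
noncomputable def term (s : ℝ) (x : GA G) (k : ℕ) : BH G :=
  ((s ^ k / k ! : ℝ) : ℂ) • io ((δ ^ k) x)

variable (δ) in
/-- The exponential of the derivation. -/
noncomputable def al (s : ℝ) (x : GA G) : BH G := ∑' k, term δ s x k

lemma coef (s : ℝ) {n : ℕ} {p : ℕ × ℕ} (hp : p ∈ antidiagonal n) :
    ((s ^ p.1 / p.1 ! : ℝ) : ℂ) * ((s ^ p.2 / p.2 ! : ℝ) : ℂ) =
      ((s ^ n / n ! : ℝ) : ℂ) * n.choose p.1 := by
  obtain rfl := mem_antidiagonal.1 hp
  have h : (((p.1 + p.2)! : ℕ) : ℂ) = (p.1 + p.2).choose p.1 * p.1 ! * p.2 ! := by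
    rw [← Nat.add_choose_mul_factorial_mul_factorial, Nat.choose_symm_add]; push_cast; ring
  have h1 : ((p.1 ! : ℕ) : ℂ) ≠ 0 := by exact_mod_cast p.1.factorial_ne_zero
  have h2 : ((p.2 ! : ℕ) : ℂ) ≠ 0 := by exact_mod_cast p.2.factorial_ne_zero
  have h3 : (((p.1 + p.2).choose p.1 : ℕ) : ℂ) ≠ 0 := by
    exact_mod_cast (Nat.choose_pos (Nat.le_add_right _ _)).ne'
  push_cast
  rw [h, pow_add]; field_simp

lemma norm_term (s : ℝ) (x : GA G) (k : ℕ) :
    ‖term δ s x k‖ = |s| ^ k / k ! * ‖io ((δ ^ k) x)‖ := by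
  simp [term, norm_smul]

section
variable {r : ℝ} (hG : ∀ x, Summable fun k => r ^ k / k ! * ‖io ((δ ^ k) x)‖) {s : ℝ}
  (hs : |s| ≤ r)
include hG hs

lemma summable_term (x : GA G) : Summable fun k => ‖term δ s x k‖ := by
  refine (hG x).of_nonneg_of_le (fun _ => norm_nonneg _) fun k => ?_
  rw [norm_term]; gcongr

lemma al_add (x y : GA G) : al δ s (x + y) = al δ s x + al δ s y := by
  rw [al, al, al, ← (summable_term hG hs x).of_norm.tsum_add (summable_term hG hs y).of_norm]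
  simp [term]

lemma al_smul (c : ℂ) (x : GA G) : al δ s (c • x) = c • al δ s x := by
  rw [al, al, ← tsum_const_smul'' c]
  refine tsum_congr fun k => ?_
  simp only [term, map_smul]; rw [smul_comm]

lemma al_mul (hL : ∀ x y, δ (x * y) = δ x * y + x * δ y) (x y : GA G) :
    al δ s (x * y) = al δ s x * al δ s y := by
  rw [al, al, al, tsum_mul_tsum_eq_tsum_sum_antidiagonal_of_summable_norm (summable_term hG hs x)
    (summable_term hG hs y)]
  refine tsum_congr fun n => ?_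
  rw [term, leibniz hL, map_sum, smul_sum]
  refine sum_congr rfl fun p hp => ?_
  rw [term, term, smul_mul_smul_comm, coef s hp, map_nsmul, map_mul, mul_smul,
    Nat.cast_smul_eq_nsmul]

lemma al_inner (hS : ∀ x y, ⟪vec (δ x), vec y⟫_ℂ + ⟪vec x, vec (δ y)⟫_ℂ = 0) (x y : GA G) :
    ⟪al δ s x (dl 1), al δ s y (dl 1)⟫_ℂ = ⟪vec x, vec y⟫_ℂ := by
  let ψ : BH G →L[ℂ] ℂ := (innerSL ℂ (dl 1)).comp (ContinuousLinearMap.apply ℂ _ (dl 1))
  have hψ : ∀ S T : BH G, ψ (star S * T) = ⟪S (dl 1), T (dl 1)⟫_ℂ := fun S T => by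
    simp [ψ, ContinuousLinearMap.star_eq_adjoint, ContinuousLinearMap.adjoint_inner_right]
  have h1 : Summable fun k => ‖star (term δ s x k)‖ :=
    (summable_term hG hs x).congr fun k => (norm_star _).symm
  have h2 := summable_term hG hs y
  rw [← hψ, al, al, tsum_star, tsum_mul_tsum_eq_tsum_sum_antidiagonal_of_summable_norm h1 h2,
    ψ.map_tsum (summable_norm_sum_mul_antidiagonal_of_summable_norm h1 h2).of_norm,
    tsum_eq_single 0]
  · simp [hψ, term, vec_def]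
  · intro n hn
    obtain ⟨n, rfl⟩ := Nat.exists_eq_succ_of_ne_zero hn
    rw [map_sum, ← mul_zero ((s ^ (n + 1) / (n + 1)! : ℝ) : ℂ), ← skew_sum hS x y n, mul_sum]
    refine sum_congr rfl fun p hp => ?_
    rw [hψ, term, term, smul_apply, smul_apply, inner_smul_left, inner_smul_right,
      Complex.conj_ofReal, ← mul_assoc, coef s hp, nsmul_eq_mul, mul_assoc, vec_def, vec_def]

lemma al_adj (hS : ∀ x y, ⟪vec (δ x), vec y⟫_ℂ + ⟪vec x, vec (δ y)⟫_ℂ = 0) (x y : GA G) :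
    ⟪vec y, al δ s x (dl 1)⟫_ℂ = ⟪al δ (-s) y (dl 1), vec x⟫_ℂ := by
  let ψ : GA G → BH G →L[ℂ] ℂ := fun y =>
    (innerSL ℂ (vec y)).comp (ContinuousLinearMap.apply ℂ _ (dl 1))
  have hψ : ∀ y T, ψ y T = ⟪vec y, T (dl 1)⟫_ℂ := fun y T => rfl
  rw [← inner_conj_symm (al δ (-s) y (dl 1)), ← hψ, ← hψ, al, al,
    (ψ y).map_tsum (summable_term hG hs x).of_norm,
    (ψ x).map_tsum (summable_term hG (s := -s) (by simpa using hs) y).of_norm, Complex.conj_tsum]
  refine tsum_congr fun k => ?_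
  rw [hψ, hψ, inner_conj_symm, term, term, smul_apply, smul_apply, inner_smul_left,
    inner_smul_right, Complex.conj_ofReal, ← vec_def, ← vec_def, skew_pow hS, ← mul_assoc]
  congr 1
  push_cast
  rw [div_mul_eq_mul_div, ← mul_pow]; simp

lemma al_est (hr : 0 < r) (x : GA G) : ‖al δ s x - io x - (s : ℂ) • io (δ x)‖ ≤
    (∑' k, r ^ (k + 2) / (k + 2)! * ‖io ((δ ^ (k + 2)) x)‖) / r ^ 2 * s ^ 2 := by
  have h1 := (summable_term hG hs x).of_norm.sum_add_tsum_nat_add 2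
  have h2 : al δ s x - io x - (s : ℂ) • io (δ x) = ∑' k, term δ s x (k + 2) := by
    rw [al, ← h1]; simp [sum_range_succ, term]; abel
  have h3 := (summable_nat_add_iff 2).2 (hG x)
  rw [h2, div_mul_eq_mul_div, mul_div_assoc, ← tsum_mul_right]
  refine tsum_of_norm_bounded (h3.mul_right _).hasSum fun k => ?_
  rw [norm_term]
  have : |s| ^ (k + 2) ≤ r ^ (k + 2) * (s ^ 2 / r ^ 2) := by
    rw [pow_add, pow_add, sq_abs, mul_assoc, mul_div_cancel₀ _ (by positivity)]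
    gcongr
  calc _ ≤ r ^ (k + 2) * (s ^ 2 / r ^ 2) / (k + 2)! * ‖io ((δ ^ (k + 2)) x)‖ := by gcongr
    _ = _ := by ring

lemma exists_V (hS : ∀ x y, ⟪vec (δ x), vec y⟫_ℂ + ⟪vec x, vec (δ y)⟫_ℂ = 0) :
    ∃ V : BH G, star V * V = 1 ∧ ∀ x, V (vec x) = al δ s x (dl 1) := by
  obtain ⟨J, hJ⟩ := exists_isometry (fun g : G => al δ s (sg g) (dl 1)) (by
    rw [orthonormal_iff_ite]
    intro g h
    rw [al_inner hG hs hS, vec_sg, vec_sg, inner_dl, dl_apply])
  refine ⟨J.toContinuousLinearMap, ext_entries fun g k => ?_, fun x => ?_⟩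
  · rw [mul_apply_eq_comp, ContinuousLinearMap.star_eq_adjoint,
      ContinuousLinearMap.adjoint_inner_right]
    exact J.inner_map_map _ _
  · induction x using MonoidAlgebra.induction_on with
    | of g => rw [MonoidAlgebra.of_apply, vec_sg]; exact hJ g
    | add x y hx hy => rw [map_add, map_add, hx, hy, al_add hG hs, add_apply]
    | smul c x hx => rw [map_smul, map_smul, hx, al_smul hG hs, smul_apply]

end

lemma al_mem (s : ℝ) (x : GA G) : al δ s x ∈ MM G :=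
  mem_MM.2 fun T hT => Commute.tsum_right _ fun k => (mem_MM.1 (io_mem _) T hT).smul_right _

lemma al_fix (s : ℝ) {x : GA G} (h : δ x = 0) : al δ s x = io x := by
  rw [al, tsum_eq_single 0]
  · simp [term]
  · intro n hn
    obtain ⟨n, rfl⟩ := Nat.exists_eq_succ_of_ne_zero hn
    simp [term, pow_succ, h]

theorem flow (hL : ∀ x y, δ (x * y) = δ x * y + x * δ y)
    (hS : ∀ x y, ⟪vec (δ x), vec y⟫_ℂ + ⟪vec x, vec (δ y)⟫_ℂ = 0) {r : ℝ} (hr : 0 < r)
    (hG : ∀ x, Summable fun k => r ^ k / k ! * ‖io ((δ ^ k) x)‖) :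
    ∃ C : GA G → ℝ, ∀ s : ℝ, |s| ≤ r → ∃ V : BH G, Aut V ∧ (∀ x, δ x = 0 → Commute V (io x)) ∧
      ∀ x, ‖V (vec x) - vec x - (s : ℂ) • vec (δ x)‖ ≤ C x * s ^ 2 := by
  refine ⟨fun x => (∑' k, r ^ (k + 2) / (k + 2)! * ‖io ((δ ^ (k + 2)) x)‖) / r ^ 2,
    fun s hs => ?_⟩
  obtain ⟨V, h1, hV⟩ := exists_V hG hs hS
  obtain ⟨V', h1', hV'⟩ := exists_V hG (s := -s) (by simpa using hs) hS
  have h2 : star V' = V := ext_entries fun g k => by
    rw [ContinuousLinearMap.star_eq_adjoint, ContinuousLinearMap.adjoint_inner_right, ← vec_sg,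
      ← vec_sg, hV, hV', al_adj hG hs hS]
  have h3 : ∀ x y, al δ s x (V (vec y)) = V (vec (x * y)) := fun x y => by
    rw [hV, hV, al_mul hG hs hL, mul_apply_eq_comp]
  refine ⟨V, Aut.of_intertwine ⟨h1, by rw [← h2, star_star, h1']⟩ ?_ (fun g => al δ s (sg g))
    (fun g => al_mem _ _) fun g k => by rw [← vec_sg, h3, sg_mul, vec_sg], fun x hx => ?_,
    fun x => ?_⟩
  · rw [← vec_sg, hV, sg_one, al_fix _ (der_one hL), vec_def]
  · refine ext_dl fun g => ?_
    rw [mul_apply_eq_comp, mul_apply_eq_comp, ← vec_sg, ← vec_mul, ← h3, al_fix _ hx]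
  · refine le_trans ?_ (al_est hG hs hr x)
    have := (al δ s x - io x - (s : ℂ) • io (δ x)).le_opNorm (dl 1)
    rw [norm_dl, mul_one] at this
    rw [hV]
    exact this

end Crest.Agent.R134
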