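import Crest.Agent.R134.Alg

/-!
Row 134: an approximate logarithm of a Haar unitary by a trigonometric polynomial.
-/

set_option autoImplicit false
set_option linter.unusedVariables false
set_option linter.unusedSectionVars false
set_option linter.deprecated false

open Crest.OpAlg Filter Topology NormedSpace
open scoped InnerProductSpace

namespace Crest.Agent.R134

variable {G : Type*} [Group G] [DecidableEq G]

noncomputable instance ratAlg : NormedAlgebra ℚ (BH G) := .restrictScalars ℚ ℂ (BH G)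

lemma cfc_vec_le {U : BH G} (hU : IsStarNormal U) (f g : ℂ → ℂ)
    (hf : ContinuousOn f (spectrum ℂ U)) (hg : ContinuousOn g (spectrum ℂ U))
    (h : ∀ z ∈ spectrum ℂ U, ‖f z‖ ≤ ‖g z‖) (η : ltwo G) : ‖cfc f U η‖ ≤ ‖cfc g U η‖ := by
  let k : ℂ → ℂ := fun z => (Real.sqrt (‖g z‖ ^ 2 - ‖f z‖ ^ 2) : ℝ)
  have hk : ContinuousOn k (spectrum ℂ U) := by fun_prop
  have h1 : star (cfc g U) * cfc g U = star (cfc f U) * cfc f U + star (cfc k U) * cfc k U := by
    rw [← cfc_star, ← cfc_star, ← cfc_star, ← cfc_mul _ _ U, ← cfc_mul _ _ U, ← cfc_mul _ _ U,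
      ← cfc_add U _ _]
    refine cfc_congr fun z hz => ?_
    have h2 : 0 ≤ ‖g z‖ ^ 2 - ‖f z‖ ^ 2 := sub_nonneg.2 (by gcongr; exact h z hz)
    simp only [Complex.star_def, Complex.conj_mul', k, Complex.norm_real, Real.norm_eq_abs]
    rw [← Complex.ofReal_pow, ← Complex.ofReal_pow, ← Complex.ofReal_pow, sq_abs, Real.sq_sqrt h2]
    push_cast; ring
  have h3 : ∀ T : BH G, ((‖T η‖ ^ 2 : ℝ) : ℂ) = ⟪η, (star T * T) η⟫_ℂ := fun T => by
    rw [mul_apply_eq_comp, ContinuousLinearMap.star_eq_adjoint,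
      ContinuousLinearMap.adjoint_inner_right, inner_self_eq_norm_sq_to_K]
    simp
  have h4 : ‖cfc g U η‖ ^ 2 = ‖cfc f U η‖ ^ 2 + ‖cfc k U η‖ ^ 2 := by
    have := h3 (cfc g U)
    rw [h1, add_apply, inner_add_right, ← h3, ← h3] at this
    exact_mod_cast this
  exact le_of_sq_le_sq (by rw [h4]; exact le_add_of_nonneg_right (sq_nonneg _)) (norm_nonneg _)

lemma exists_skew (t : G) (ht : Function.Injective fun k : ℕ => t ^ k) (ε : ℝ) (hε : 0 < ε) :
    ∃ y ∈ StarAlgebra.elemental ℂ (lam t : BH G), star y = -y ∧ ‖exp y (dl 1) - dl t‖ < ε := by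
  have hU : IsStarNormal (lam t : BH G) := isStarNormal_of_mem_unitary (lam_unitary t)
  have hσ : ∀ z ∈ spectrum ℂ (lam t : BH G), ‖z‖ = 1 := fun z hz =>
    spectrum.norm_eq_one_of_unitary (lam_unitary t) hz
  obtain ⟨N, hN⟩ : ∃ N : ℕ, 16 / ε ^ 2 < N := exists_nat_gt _
  have hN0 : (0 : ℝ) < N := lt_trans (by positivity) hN
  let ψ : ℂ → ℂ := fun z => ∑ k ∈ Finset.range N, (4 * (-1) ^ k / N) * z ^ k
  have hψ : Continuous ψ := by fun_prop
  have hψ1 : ψ (-1) = 4 := by
    have : (N : ℂ) ≠ 0 := by exact_mod_cast hN0.ne'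
    simp only [ψ, div_mul_eq_mul_div, mul_assoc, ← mul_pow]
    simp; field_simp
  obtain ⟨η, hη, h1⟩ := Metric.continuous_iff.1 hψ (-1) 2 two_pos
  let g : ℂ → ℂ := fun z => Complex.I * ((min 1 (‖z + 1‖ / η) * z.arg : ℝ) : ℂ)
  have hg : ContinuousOn g (spectrum ℂ (lam t : BH G)) := fun z hz => by
    refine (continuousAt_const.mul (Complex.continuous_ofReal.continuousAt.comp
      (f := fun z : ℂ => min 1 (‖z + 1‖ / η) * z.arg) ?_)).continuousWithinAt
    by_cases h : z = -1
    · subst h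
      rw [ContinuousAt, neg_add_cancel, norm_zero, zero_div, min_eq_right zero_le_one, zero_mul]
      have : Tendsto (fun z : ℂ => min 1 (‖z + 1‖ / η)) (𝓝 (-1)) (𝓝 0) :=
        Continuous.tendsto' (by fun_prop) _ _ (by simp)
      exact this.zero_mul_isBoundedUnder_le
        (isBoundedUnder_of ⟨Real.pi, fun z => Complex.abs_arg_le_pi z⟩)
    · refine ContinuousAt.mul (by fun_prop) (Complex.continuousAt_arg ?_)
      by_contra h2
      rw [Complex.mem_slitPlane_iff, not_or, not_lt, not_not] at h2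
      have h3 := hσ z hz
      apply h
      have h4 : z = (z.re : ℂ) := Complex.ext rfl (by simpa using h2.2)
      rw [h4, Complex.norm_real, Real.norm_eq_abs, abs_of_nonpos h2.1] at h3
      rw [h4, ← neg_neg z.re, h3]; simp
  refine ⟨cfc g (lam t), cfc_mem_elemental _ _, ?_, ?_⟩
  · rw [← cfc_star, ← cfc_neg]
    exact cfc_congr fun z _ => by simp [g]
  · have h2 : exp (cfc g (lam t : BH G)) - lam t =
        cfc (fun z => Complex.exp (g z) - z) (lam t : BH G) := by
      rw [cfc_sub _ _ _, cfc_id' ℂ (lam t : BH G), cfc_comp' Complex.exp g (lam t : BH G),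
        CFC.complex_exp_eq_normedSpace_exp]
    have h3 : cfc ψ (lam t : BH G) (dl 1) =
        ∑ k ∈ Finset.range N, (4 * (-1) ^ k / N : ℂ) • dl (t ^ k) := by
      have := cfc_sum (fun (k : ℕ) (z : ℂ) => (4 * (-1) ^ k / N) * z ^ k) (lam t : BH G)
        (Finset.range N)
      rw [Finset.sum_fn] at this
      rw [this, sum_apply]
      refine Finset.sum_congr rfl fun k _ => ?_
      rw [cfc_const_mul _ _ _, cfc_pow_id _ _, smul_apply, ← map_pow, lam_dl, mul_one]
    have h4 := cfc_vec_le hU (fun z => Complex.exp (g z) - z) ψ (by fun_prop) hψ.continuousOn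
      (fun z hz => by
        by_cases h : dist z (-1) < η
        · have h5 := h1 z h
          rw [hψ1, dist_eq_norm'] at h5
          have h6 := norm_sub_norm_le (4 : ℂ) (ψ z)
          have h7 := norm_sub_le (Complex.exp (g z)) z
          have h8 : ‖Complex.exp (g z)‖ = 1 := by
            simp only [g]; rw [mul_comm, Complex.norm_exp_ofReal_mul_I]
          rw [hσ z hz, h8] at h7
          simp only [Complex.norm_ofNat] at h6
          linarith
        · rw [dist_eq_norm, sub_neg_eq_add, not_lt, ← one_le_div hη] at h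
          have h5 := Complex.norm_mul_exp_arg_mul_I z
          rw [hσ z hz, Complex.ofReal_one, one_mul] at h5
          simp [g, min_eq_left h, mul_comm Complex.I, h5]) (dl 1)
    rw [← h2, h3, sub_apply, lam_dl, mul_one] at h4
    refine h4.trans_lt (lt_of_pow_lt_pow_left₀ 2 hε.le ?_)
    rw [norm_sum_dl _ _ ht.injOn]
    rw [div_lt_iff₀ (by positivity)] at hN
    simp only [norm_div, norm_mul, norm_pow, norm_neg, norm_one, one_pow, mul_one,
      Complex.norm_ofNat, Complex.norm_natCast, Finset.sum_const, Finset.card_range, nsmul_eq_mul]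
    calc _ = 16 / (N : ℝ) := by field_simp; norm_num
      _ < _ := by rw [div_lt_iff₀ hN0]; linarith

theorem exists_log (t : G) (ht : Function.Injective fun k : ℕ => t ^ k) (ε : ℝ) (hε : 0 < ε) :
    ∃ (Z : GA G) (ω : Circle), star (io Z) = -io Z ∧
      (∀ z, Z.coeff z ≠ 0 → z ≠ 1 ∧ ∃ k : ℤ, z = t ^ k) ∧
      ‖exp (io Z) (dl 1) - (ω : ℂ) • dl t‖ ≤ ε := by
  obtain ⟨y, hy, h1, h2⟩ := exists_skew t ht ε hε
  have h3 : IsOpen {x : BH G | ‖exp ((1 / 2 : ℂ) • x - star ((1 / 2 : ℂ) • x)) (dl 1) - dl t‖ < ε} := by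
    have := exp_continuous (𝔸 := BH G)
    exact isOpen_lt (by fun_prop) continuous_const
  obtain ⟨x, h4, hx⟩ := mem_closure_iff.1 hy _ h3 (by
    have : (1 / 2 : ℂ) • y - star ((1 / 2 : ℂ) • y) = y := by
      rw [star_smul, h1, smul_neg, sub_neg_eq_add, ← add_smul]; norm_num
    rw [Set.mem_setOf_eq, this]; exact h2)
  have hx' : x ∈ Subalgebra.toSubmodule (Algebra.adjoin ℂ ({lam t} ∪ star {lam t} : Set (BH G))) :=
    hx
  rw [Algebra.adjoin_eq_span] at hx'
  have h5 : ∀ c : ℂ, ∃ (Z : GA G) (r : ℝ), (∀ z, Z.coeff z ≠ 0 → z ≠ 1 ∧ ∃ k : ℤ, z = t ^ k) ∧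
      c • x - star (c • x) = io Z + algebraMap ℂ _ (r * Complex.I) := by
    clear hx h4
    induction hx' using Submodule.span_induction with
    | mem x hx =>
      have : x ∈ (Subgroup.zpowers t).toSubmonoid.map lam := by
        refine Submonoid.closure_le.2 ?_ hx
        rintro _ (rfl | h)
        · exact ⟨t, Subgroup.mem_zpowers t, rfl⟩
        · refine ⟨t⁻¹, (Subgroup.zpowers t).inv_mem (Subgroup.mem_zpowers t), ?_⟩
          rw [← star_lam, ← Set.mem_singleton_iff.1 (Set.mem_star.1 h), star_star]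
      obtain ⟨_, ⟨k, rfl⟩, rfl⟩ := this
      intro c
      by_cases h : t ^ k = 1
      · refine ⟨0, 2 * c.im, fun z h => absurd rfl h, ?_⟩
        simp only [h, map_one, star_smul, star_one, ← sub_smul, Complex.star_def, Complex.sub_conj,
          Algebra.algebraMap_eq_smul_one, map_zero, zero_add]
      · refine ⟨c • sg (t ^ k) - star c • sg (t ^ k)⁻¹, 0, fun z hz => ?_, by
          simp [io_single, star_lam]⟩
        by_cases e1 : z = t ^ k
        · exact ⟨e1 ▸ h, k, e1⟩
        by_cases e2 : z = (t ^ k)⁻¹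
        · exact ⟨e2 ▸ inv_ne_one.2 h, -k, by simpa using e2⟩
        · exact absurd (by simp [Finsupp.single_eq_of_ne e1, Finsupp.single_eq_of_ne e2]) hz
    | zero => exact fun c => ⟨0, 0, fun z h => absurd rfl h, by simp⟩
    | add x y _ _ hx hy =>
      intro c
      obtain ⟨Z, r, a1, a2⟩ := hx c
      obtain ⟨Z', r', b1, b2⟩ := hy c
      refine ⟨Z + Z', r + r', fun z h => ?_, ?_⟩
      · by_cases h1 : Z.coeff z = 0
        · exact b1 z (by simpa [h1] using h)
        · exact a1 z h1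
      · rw [smul_add, star_add, add_sub_add_comm, a2, b2]
        simp only [map_add, Complex.ofReal_add, add_mul]; abel
    | smul d x _ hx => exact fun c => by rw [smul_smul]; exact hx _
  obtain ⟨Z, r, a1, a2⟩ := h5 (1 / 2)
  refine ⟨Z, Circle.exp (-r), ?_, a1, ?_⟩
  · rw [← sub_eq_iff_eq_add] at a2
    rw [← a2, Algebra.algebraMap_eq_smul_one]
    simp only [star_sub, star_star, star_smul, star_one, Complex.star_def, map_mul,
      Complex.conj_ofReal, Complex.conj_I, mul_neg, neg_smul, Complex.conj_conj]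
    abel
  · rw [Set.mem_setOf_eq, a2, add_comm, exp_add_of_commute (Algebra.commute_algebraMap_left _ _),
      ← algebraMap_exp_comm, ← Algebra.smul_def, ← Complex.exp_eq_exp_ℂ] at h4
    have e : exp (io Z) (dl 1) - (Circle.exp (-r) : ℂ) • dl t = (Circle.exp (-r) : ℂ) •
        ((Complex.exp (r * Complex.I) • exp (io Z)) (dl 1) - dl t) := by
      rw [smul_sub, smul_apply, smul_smul, Circle.coe_exp, ← Complex.exp_add]; simp
    rw [e, norm_smul, Circle.norm_coe, one_mul]
    exact h4.le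

end Crest.Agent.R134
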