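import Crest.Agent.R134.Baire
import Crest.Agent.R134.Comb
import Crest.Agent.R134.Deriv
import Crest.Agent.R134.Flow
import Crest.Agent.R134.Log

/-!
Row 134: the approximation lemma.
-/

set_option autoImplicit false
set_option linter.unusedVariables false
set_option linter.unusedSectionVars false
set_option linter.deprecated false

open Crest.OpAlg Filter Topology NormedSpace
open scoped InnerProductSpace

namespace Crest.Agent.R134

section General
variable {G : Type*} [Group G] [DecidableEq G]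

lemma telescope {V z : BH G} (hV : V ∈ unitary (BH G)) (hz : z ∈ unitary (BH G))
    (h : Commute V z) (η : ltwo G) (N : ℕ) : ‖(V ^ N) η - (z ^ N) η‖ ≤ N * ‖V η - z η‖ := by
  induction N with
  | zero => simp
  | succ N ih =>
    have e : (V ^ (N + 1)) η - (z ^ (N + 1)) η =
        V ((V ^ N) η - (z ^ N) η) + (z ^ N) (V η - z η) := by
      rw [map_sub, map_sub, ← mul_apply_eq_comp, ← mul_apply_eq_comp, ← mul_apply_eq_comp,
        ← mul_apply_eq_comp, (h.pow_right N).eq, ← pow_succ', ← pow_succ]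
      abel
    rw [e]
    refine (norm_add_le _ _).trans ?_
    rw [norm_unitary hV, norm_unitary (pow_mem hz N)]
    rw [Nat.cast_succ]; linarith

lemma exp_est (X : BH G) :
    Tendsto (fun N : ℕ => (N : ℝ) * ‖exp ((N : ℂ)⁻¹ • X) - 1 - (N : ℂ)⁻¹ • X‖) atTop (𝓝 0) := by
  have h := (hasDerivAt_exp_smul_const X (0 : ℂ)).isLittleO
  simp only [zero_smul, exp_zero, one_mul, sub_zero] at h
  have h1 := (h.comp_tendsto tendsto_inv_atTop_nhds_zero_nat).norm_norm.tendsto_div_nhds_zero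
  simpa [Function.comp_def, mul_comm] using h1

/-- Averaging of conjugates. -/
noncomputable def Lam (Z : GA G) : GA G →ₗ[ℂ] GA G :=
  Finsupp.linearCombination ℂ (fun γ => sg γ * Z * sg γ⁻¹) ∘ₗ
    (MonoidAlgebra.coeffLinearEquiv ℂ).toLinearMap

lemma Lam_apply (Z x : GA G) :
    Lam Z x = ∑ γ ∈ x.coeff.support, x.coeff γ • (sg γ * Z * sg γ⁻¹) := rfl

lemma Lam_sg (Z : GA G) (γ : G) : Lam Z (sg γ) = sg γ * Z * sg γ⁻¹ := by
  simp [Lam, MonoidAlgebra.coeffLinearEquiv]

lemma Lam_mul (Z : GA G) (g : G) (x : GA G) : Lam Z (sg g * x) = sg g * Lam Z x * sg g⁻¹ := by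
  induction x using MonoidAlgebra.induction_on with
  | of γ =>
    rw [MonoidAlgebra.of_apply, sg_mul, Lam_sg, Lam_sg, mul_inv_rev, ← sg_mul, ← sg_mul]
    simp only [mul_assoc]
  | add x y hx hy => rw [mul_add, map_add, map_add, hx, hy, mul_add, add_mul]
  | smul c x hx => rw [mul_smul_comm, map_smul, map_smul, hx, mul_smul_comm, smul_mul_assoc]

lemma norm_Lam (Z x : GA G)
    (h : ∀ z ∈ Z.coeff.support, Set.InjOn (fun γ => γ * z * γ⁻¹) x.coeff.support) :
    ‖vec (Lam Z x)‖ ≤ (∑ z ∈ Z.coeff.support, ‖Z.coeff z‖) * ‖vec x‖ := by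
  have e : vec (Lam Z x) = ∑ z ∈ Z.coeff.support, Z.coeff z •
      ∑ γ ∈ x.coeff.support, x.coeff γ • dl (γ * z * γ⁻¹) := by
    rw [Lam_apply]
    conv_lhs => rw [eq_sum_sg Z]
    simp only [Finset.mul_sum, Finset.sum_mul, mul_smul_comm, smul_mul_assoc, sg_mul, map_sum,
      map_smul, vec_sg, Finset.smul_sum]
    rw [Finset.sum_comm]
    exact Finset.sum_congr rfl fun _ _ => Finset.sum_congr rfl fun _ _ => smul_comm _ _ _
  rw [e, Finset.sum_mul]
  refine (norm_sum_le _ _).trans (Finset.sum_le_sum fun z hz => ?_)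
  rw [norm_smul]
  refine mul_le_mul_of_nonneg_left (le_of_sq_le_sq (le_of_eq ?_) (norm_nonneg _)) (norm_nonneg _)
  rw [norm_sum_dl _ _ (h z hz)]
  conv_rhs => rw [eq_sum_sg x]
  simp only [map_sum, map_smul, vec_sg]
  exact (norm_sum_dl _ id (Set.injOn_id _) _).symm

lemma Lam_skew {Z x : GA G} (hZ : star (io Z) = -io Z) (hx : ∀ γ, (x.coeff γ).im = 0) :
    star (io (Lam Z x)) = -io (Lam Z x) := by
  rw [Lam_apply, map_sum, star_sum, ← Finset.sum_neg_distrib]
  refine Finset.sum_congr rfl fun γ _ => ?_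
  simp [io_sg, star_lam, hZ, mul_assoc, Complex.conj_eq_iff_im.2 (hx γ)]

end General

variable {κ : Type} [DecidableEq κ]

lemma eq_one_of_commute {a b t : κ} (hat : a ≠ t) (hbt : b ≠ t) {w : FreeGroup κ}
    (hw : w ∈ Subgroup.closure ({FreeGroup.of a, FreeGroup.of b} : Set (FreeGroup κ))) {k : ℤ}
    (hk : k ≠ 0) (h : w * FreeGroup.of t ^ k = FreeGroup.of t ^ k * w) : w = 1 := by
  let T : Multiplicative ℤ →* Equiv.Perm (FreeGroup κ × ℤ) :=
    { toFun := fun k =>
        { toFun := fun x => (x.1, x.2 + if x.1 = 1 then k.toAdd else 0)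
          invFun := fun x => (x.1, x.2 - if x.1 = 1 then k.toAdd else 0)
          left_inv := fun x => by simp
          right_inv := fun x => by simp }
      map_one' := by ext x <;> simp
      map_mul' := fun k l => by
        ext x
        · simp
        · simp; split_ifs <;> ring }
  let ψ : FreeGroup κ →* Equiv.Perm (FreeGroup κ × ℤ) := FreeGroup.lift fun i =>
    if i = t then T (.ofAdd 1) else (Equiv.mulLeft (FreeGroup.of i)).prodCongr (.refl _)
  have h1 : ∀ x m, ψ w (x, m) = (w * x, m) := by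
    clear h
    induction hw using Subgroup.closure_induction with
    | mem w hw => rcases hw with rfl | rfl <;> simp [ψ, hat, hbt]
    | one => simp
    | mul w w' _ _ h h' => simp [h, h', mul_assoc]
    | inv w _ h => intro x m; rw [map_inv, Equiv.Perm.inv_eq_iff_eq, h]; simp
  have h2 : ψ (FreeGroup.of t ^ k) = T (.ofAdd k) := by
    rw [map_zpow, FreeGroup.lift_apply_of, if_pos rfl, ← map_zpow, ← ofAdd_zsmul]; simp
  have h3 := congrArg (fun g => ψ g (1, 0)) h
  simp only [map_mul, Equiv.Perm.mul_apply, h2, h1] at h3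
  by_contra h4
  simp [T, h1, h4, hk] at h3

lemma exists_shift {a b t : κ} (hat : a ≠ t) (hbt : b ≠ t) {W : FreeGroup κ}
    (hW : W ∈ Subgroup.closure ({FreeGroup.of a, FreeGroup.of b} : Set (FreeGroup κ))) :
    ∃ θ : FreeGroup κ ≃* FreeGroup κ, (∀ i, i ≠ t → θ (.of i) = .of i) ∧
      θ (.of t * W) = .of t ∧ θ W = W := by
  let f : FreeGroup κ → FreeGroup κ →* FreeGroup κ := fun u =>
    FreeGroup.lift fun i => if i = t then .of t * u else .of i
  have h1 : ∀ u, f u W = W := fun u => by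
    induction hW using Subgroup.closure_induction with
    | mem w hw => rcases hw with rfl | rfl <;> simp [f, hat, hbt]
    | one => simp
    | mul w w' _ _ h h' => rw [map_mul, h, h']
    | inv w _ h => rw [map_inv, h]
  have h2 : ∀ u, f u (.of t) = .of t * u := fun u => by simp [f]
  have h3 : ∀ u i, i ≠ t → f u (.of i) = .of i := fun u i h => by simp [f, h]
  refine ⟨MonoidHom.toMulEquiv (f W⁻¹) (f W) ?_ ?_, h3 _, ?_, h1 _⟩
  · ext1 i
    by_cases h : i = t
    · simp [h, h1, h2]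
    · simp [h, h3]
  · ext1 i
    by_cases h : i = t
    · simp [h, h1, h2]
    · simp [h, h3]
  · simp [h1, h2]

theorem mainStmt : MainStmt κ := by
  intro a b t hab hat hbt ε hε
  obtain ⟨Z0, ω, hZ0, hs0, he0⟩ := exists_log (FreeGroup.of t) (fun k l h => by
    simpa [FreeGroup.norm_of_pow] using congrArg FreeGroup.norm h) (ε / 3) (by positivity)
  set N0 := ∑ z ∈ Z0.coeff.support, ‖Z0.coeff z‖ with hN0
  have hN0' : 0 ≤ N0 := Finset.sum_nonneg fun _ _ => norm_nonneg _
  obtain ⟨K, c, hc1, hc2, hc3, hc4⟩ := comb hab (ε / 3 / (N0 + 1)) (by positivity)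
  have hLam : ∀ x : GA (FreeGroup κ), (∀ γ, x.coeff γ ≠ 0 → γ ∈ Subgroup.closure
      ({FreeGroup.of a, FreeGroup.of b} : Set (FreeGroup κ))) →
      ‖vec x‖ ≤ ε / 3 / (N0 + 1) → ‖vec (Lam Z0 x)‖ ≤ ε / 3 := fun x hx h => by
    refine (norm_Lam Z0 x fun z hz γ h1 γ' h2 h3 => ?_).trans ?_
    · obtain ⟨h4, k, rfl⟩ := hs0 z (Finsupp.mem_support_iff.1 hz)
      have := eq_one_of_commute hat hbt (mul_mem (inv_mem (hx _ (Finsupp.mem_support_iff.1 h2)))
        (hx _ (Finsupp.mem_support_iff.1 h1))) (k := k) (by rintro rfl; simp at h4) (by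
          calc _ = γ'⁻¹ * (γ * FreeGroup.of t ^ k * γ⁻¹) * γ := by group
            _ = γ'⁻¹ * (γ' * FreeGroup.of t ^ k * γ'⁻¹) * γ := by rw [show γ * _ * _ = _ from h3]
            _ = _ := by group)
      exact (inv_mul_eq_one.1 this).symm
    · calc _ ≤ (N0 + 1) * (ε / 3 / (N0 + 1)) := by gcongr; linarith
        _ = _ := by field_simp
  let y : κ → GA (FreeGroup κ) := fun i => if i = a then Lam Z0 c else 0
  obtain ⟨δ, hL, hy⟩ := exists_der y
  have hδ0 : ∀ i, i ≠ a → δ (sg (.of i)) = 0 := fun i h => by simp [hy, y, h]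
  obtain ⟨L, C, hB⟩ := exists_Bd (Lam Z0 c)
  have hC := (norm_nonneg _).trans hB.norm_le
  obtain ⟨r, hr, hG⟩ := growth hL (L := L) y hy (fun i => by
    simp only [y]; split_ifs
    · exact hB
    · exact (Bd.zero L).mono hC) hC
  have htr := der_trace hL y hy (hδ0 t hat.symm) fun i z h => by
    simp only [y] at h; split_ifs at h
    · rw [Lam_apply] at h
      obtain ⟨γ, -, h⟩ := coeff_sum_ne h
      have h := coeff_smul_ne h
      rw [coeff_mul_sg, coeff_sg_mul] at h
      obtain ⟨-, k, h⟩ := hs0 _ h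
      exact ⟨γ, k, by rw [← h]; group⟩
    · exact absurd rfl h
  have hS := der_skew hL y hy htr fun i => by
    simp only [y]; split_ifs
    · exact Lam_skew hZ0 hc2
    · simp
  obtain ⟨D, hD⟩ := flow hL hS hr hG
  have hW : ∀ k, δ (sg (vv a b k)) =
      Lam Z0 ((∑ j ∈ Finset.range k, sg (vv a b j)) * c) * sg (vv a b k) := fun k => by
    induction k with
    | zero => simpa [vv, sg_one] using der_one hL
    | succ k ih =>
      have := der_zpow hL (hδ0 b hab.symm) k
      rw [zpow_natCast] at this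
      rw [Finset.sum_range_succ, add_mul, map_add, Lam_mul, vv, ← sg_mul, ← sg_mul, hL, hL, ih,
        this, hy, add_mul]
      simp only [y, if_true, mul_zero, add_zero, mul_assoc]
      rw [← mul_assoc (sg (vv a b k)⁻¹), sg_mul (vv a b k)⁻¹, inv_mul_cancel, sg_one, one_mul]
  set W := vv a b K with hWdef
  have hδZ : δ Z0 = 0 := by
    rw [eq_sum_sg Z0, map_sum]
    refine Finset.sum_eq_zero fun z hz => ?_
    obtain ⟨-, k, rfl⟩ := hs0 z (Finsupp.mem_support_iff.1 hz)
    rw [map_smul, der_zpow hL (hδ0 t hat.symm), smul_zero]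
  have t0 := tendsto_inv_atTop_nhds_zero_nat (𝕜 := ℝ)
  have t1 := (t0.const_mul (D (sg W))).add (exp_est (io Z0))
  have t2 := t0.const_mul (D (sg (.of a)))
  simp only [mul_zero, add_zero] at t1 t2
  obtain ⟨N, hN1, hN2, hN3, hN4⟩ := ((t1.eventually (gt_mem_nhds (by positivity : 0 < ε / 3))).and
    ((t2.eventually (gt_mem_nhds (by positivity : 0 < ε / 3))).and
      ((t0.eventually (gt_mem_nhds hr)).and (eventually_gt_atTop 0)))).exists
  have hN : (0 : ℝ) < N := by exact_mod_cast hN4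
  obtain ⟨V, hV, hVc, hVe⟩ := hD (N : ℝ)⁻¹ (by rw [abs_of_pos (by positivity)]; exact hN3.le)
  simp only [Complex.ofReal_inv, Complex.ofReal_natCast] at hVe
  have hest : ∀ (x u : GA (FreeGroup κ)) (η : ltwo (FreeGroup κ)), N * ‖V (vec x) - η‖ ≤
      D x * (N : ℝ)⁻¹ + N * ‖η - vec x - (N : ℂ)⁻¹ • vec u‖ + ‖vec (δ x - u)‖ := fun x u η => by
    have e : V (vec x) - η = (V (vec x) - vec x - (N : ℂ)⁻¹ • vec (δ x)) -
        (η - vec x - (N : ℂ)⁻¹ • vec u) + (N : ℂ)⁻¹ • vec (δ x - u) := by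
      rw [map_sub, smul_sub]; abel
    have h1 := (norm_add_le _ _).trans (add_le_add ((norm_sub_le _ _).trans
      (add_le_add (hVe x) le_rfl)) le_rfl) (a := ‖_ - (η - vec x - (N : ℂ)⁻¹ • vec u) +
        (N : ℂ)⁻¹ • vec (δ x - u)‖)
    rw [← e, norm_smul, norm_inv, Complex.norm_natCast] at h1
    calc _ ≤ _ := mul_le_mul_of_nonneg_left h1 hN.le
      _ = _ := by field_simp
  obtain ⟨θ, hθ1, hθ2, hθ3⟩ := exists_shift hat hbt (vv_mem (a := a) (b := b) K)
  obtain ⟨S, hS1, hS2⟩ := aut_of_mulEquiv θ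
  refine ⟨S * V ^ N, hS1.mul (hV.pow N), W, vv_mem K, ω, fun i hi => ?_, ?_⟩
  · have e : (S * V ^ N) (dl (.of i)) - dl (.of i) = S ((V ^ N) (dl (.of i)) - dl (.of i)) := by
      rw [map_sub, hS2, hθ1 i hi, mul_apply_eq_comp]
    have h1 := telescope hV.unit (one_mem _) (Commute.one_right _) (dl (.of i)) N
    rw [one_pow] at h1
    rw [e, norm_unitary hS1.unit]
    refine h1.trans ?_
    by_cases h : i = a
    · subst h
      have h2 := hest (sg (.of i)) 0 (dl (.of i))
      have h3 := hLam c hc1 hc3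
      rw [vec_sg, sub_zero, hy, norm_vec_mul_sg] at h2
      simp only [y, if_true, map_zero, smul_zero, sub_self, norm_zero, mul_zero, add_zero] at h2
      change N * ‖V _ - dl _‖ ≤ _
      linarith
    · have := congrArg (fun T : BH (FreeGroup κ) => T (dl 1)) (hVc _ (hδ0 i h)).eq
      simp only [mul_apply_eq_comp, hV.fix, io_sg, lam_dl, mul_one] at this
      simp [this, hε.le]
  · have e : (S * V ^ N) (dl W) - (ω : ℂ) • dl (.of t) =
        S (((V ^ N) (dl W) - exp (io Z0) (dl W)) +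
          (exp (io Z0) - (ω : ℂ) • lam (FreeGroup.of t)) (dl W)) := by
      rw [sub_apply, sub_add_sub_cancel, smul_apply, lam_dl, map_sub, map_smul, hS2, hθ2,
        mul_apply_eq_comp]
    have hz : exp ((N : ℂ)⁻¹ • io Z0) ∈ unitary (BH (FreeGroup κ)) :=
      exp_mem_unitary_of_mem_skewAdjoint (by rw [skewAdjoint.mem_iff, star_smul, hZ0]; simp)
    have h1 := telescope hV.unit hz ((hVc _ hδZ).smul_right _).exp_right (dl W) N
    rw [← exp_nsmul, ← Nat.cast_smul_eq_nsmul ℂ, smul_smul,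
      mul_inv_cancel₀ (Nat.cast_ne_zero.2 hN4.ne'), one_smul] at h1
    have h2 := hest (sg W) (Z0 * sg W) (exp ((N : ℂ)⁻¹ • io Z0) (dl W))
    have h3 := hLam ((∑ j ∈ Finset.range K, sg (vv a b j)) * c - 1) (fun γ h => by
      by_cases h4 : γ = 1
      · rw [h4]; exact one_mem _
      · rw [MonoidAlgebra.coeff_sub, Finsupp.sub_apply, ← sg_one, MonoidAlgebra.coeff_single,
          Finsupp.single_eq_of_ne h4, sub_zero, Finset.sum_mul] at h
        obtain ⟨j, -, h⟩ := coeff_sum_ne h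
        rw [coeff_sg_mul] at h
        simpa using mul_mem (vv_mem j) (hc1 _ h)) hc4
    have h4 : ‖exp ((N : ℂ)⁻¹ • io Z0) (dl W) - dl W - (N : ℂ)⁻¹ • vec (Z0 * sg W)‖ ≤
        ‖exp ((N : ℂ)⁻¹ • io Z0) - 1 - (N : ℂ)⁻¹ • io Z0‖ := by
      have := (exp ((N : ℂ)⁻¹ • io Z0) - 1 - (N : ℂ)⁻¹ • io Z0).le_opNorm (dl W)
      rw [norm_dl, mul_one] at this
      rw [vec_mul, vec_sg]
      exact this
    rw [map_sub, ← sg_one, Lam_sg, inv_one, sg_one, one_mul, mul_one] at h3
    rw [vec_sg, hW, ← sub_mul, norm_vec_mul_sg] at h2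
    have h5 : exp (io Z0) - (ω : ℂ) • lam (FreeGroup.of t) ∈ MM (FreeGroup κ) :=
      sub_mem (mem_MM.2 fun T hT => (mem_MM.1 (io_mem Z0) T hT).exp_right)
        (SMulMemClass.smul_mem _ (lam_mem _))
    rw [e, norm_unitary hS1.unit]
    refine (norm_add_le _ _).trans ?_
    rw [tr_dl h5, sub_apply, smul_apply, lam_dl, mul_one]
    have h6 := mul_le_mul_of_nonneg_left h4 hN.le
    linarith

end Crest.Agent.R134
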